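import Mathlib

/-!
Equivariant maps `ℝ × ℝ → ℝ⁴` of the form `(x, y) ↦ (e^{i κ₁ y} b(x), e^{i κ₂ y} d(x))` and the
metric they induce.
-/

namespace Vale.Agent.H55.Imm

open scoped ContDiff

/-- The scalar function `(x, y) ↦ A x * u y`. Its partial derivatives. -/
theorem hasFDerivAt_mul_sep (A u : ℝ → ℝ) (hA : Differentiable ℝ A) (hu : Differentiable ℝ u)
    (p : ℝ × ℝ) :
    HasFDerivAt (fun q : ℝ × ℝ => A q.1 * u q.2)
      (A p.1 • (deriv u p.2 • ContinuousLinearMap.snd ℝ ℝ ℝ)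
        + u p.2 • (deriv A p.1 • ContinuousLinearMap.fst ℝ ℝ ℝ)) p := by
  have h1 : HasFDerivAt (fun q : ℝ × ℝ => A q.1) (deriv A p.1 • ContinuousLinearMap.fst ℝ ℝ ℝ) p :=
    (hA p.1).hasDerivAt.comp_hasFDerivAt p hasFDerivAt_fst
  have h2 : HasFDerivAt (fun q : ℝ × ℝ => u q.2) (deriv u p.2 • ContinuousLinearMap.snd ℝ ℝ ℝ) p :=
    (hu p.2).hasDerivAt.comp_hasFDerivAt p hasFDerivAt_snd
  exact h1.mul h2

/-- One real component `A x * cos (κ y) - B x * sin (κ y)` of the equivariant map. -/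
noncomputable def compC (κ : ℝ) (A B : ℝ → ℝ) (q : ℝ × ℝ) : ℝ :=
  A q.1 * Real.cos (κ * q.2) - B q.1 * Real.sin (κ * q.2)

/-- The other real component `A x * sin (κ y) + B x * cos (κ y)`. -/
noncomputable def compS (κ : ℝ) (A B : ℝ → ℝ) (q : ℝ × ℝ) : ℝ :=
  A q.1 * Real.sin (κ * q.2) + B q.1 * Real.cos (κ * q.2)

theorem deriv_cos_mul (κ y : ℝ) : deriv (fun y => Real.cos (κ * y)) y = -(κ * Real.sin (κ * y)) := by
  have h : HasDerivAt (fun y => Real.cos (κ * y)) (-Real.sin (κ * y) * (κ * 1)) y :=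
    ((hasDerivAt_id y).const_mul κ).cos
  rw [h.deriv]; ring

theorem deriv_sin_mul (κ y : ℝ) : deriv (fun y => Real.sin (κ * y)) y = κ * Real.cos (κ * y) := by
  have h : HasDerivAt (fun y => Real.sin (κ * y)) (Real.cos (κ * y) * (κ * 1)) y :=
    ((hasDerivAt_id y).const_mul κ).sin
  rw [h.deriv]; ring

theorem differentiable_cos_mul (κ : ℝ) : Differentiable ℝ (fun y => Real.cos (κ * y)) := by
  fun_prop

theorem differentiable_sin_mul (κ : ℝ) : Differentiable ℝ (fun y => Real.sin (κ * y)) := by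
  fun_prop

theorem hasFDerivAt_compC (κ : ℝ) (A B : ℝ → ℝ) (hA : Differentiable ℝ A)
    (hB : Differentiable ℝ B) (p : ℝ × ℝ) :
    HasFDerivAt (compC κ A B)
      ((A p.1 • (-(κ * Real.sin (κ * p.2)) • ContinuousLinearMap.snd ℝ ℝ ℝ)
          + Real.cos (κ * p.2) • (deriv A p.1 • ContinuousLinearMap.fst ℝ ℝ ℝ))
        - (B p.1 • ((κ * Real.cos (κ * p.2)) • ContinuousLinearMap.snd ℝ ℝ ℝ)
          + Real.sin (κ * p.2) • (deriv B p.1 • ContinuousLinearMap.fst ℝ ℝ ℝ))) p := by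
  have h1 := hasFDerivAt_mul_sep A (fun y => Real.cos (κ * y)) hA (differentiable_cos_mul κ) p
  have h2 := hasFDerivAt_mul_sep B (fun y => Real.sin (κ * y)) hB (differentiable_sin_mul κ) p
  rw [deriv_cos_mul] at h1
  rw [deriv_sin_mul] at h2
  exact h1.sub h2

theorem hasFDerivAt_compS (κ : ℝ) (A B : ℝ → ℝ) (hA : Differentiable ℝ A)
    (hB : Differentiable ℝ B) (p : ℝ × ℝ) :
    HasFDerivAt (compS κ A B)
      ((A p.1 • ((κ * Real.cos (κ * p.2)) • ContinuousLinearMap.snd ℝ ℝ ℝ)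
          + Real.sin (κ * p.2) • (deriv A p.1 • ContinuousLinearMap.fst ℝ ℝ ℝ))
        + (B p.1 • (-(κ * Real.sin (κ * p.2)) • ContinuousLinearMap.snd ℝ ℝ ℝ)
          + Real.cos (κ * p.2) • (deriv B p.1 • ContinuousLinearMap.fst ℝ ℝ ℝ))) p := by
  have h1 := hasFDerivAt_mul_sep A (fun y => Real.sin (κ * y)) hA (differentiable_sin_mul κ) p
  have h2 := hasFDerivAt_mul_sep B (fun y => Real.cos (κ * y)) hB (differentiable_cos_mul κ) p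
  rw [deriv_sin_mul] at h1
  rw [deriv_cos_mul] at h2
  exact h1.add h2

theorem fderiv_compC_x (κ : ℝ) (A B : ℝ → ℝ) (hA : Differentiable ℝ A)
    (hB : Differentiable ℝ B) (p : ℝ × ℝ) :
    fderiv ℝ (compC κ A B) p (1, 0)
      = deriv A p.1 * Real.cos (κ * p.2) - deriv B p.1 * Real.sin (κ * p.2) := by
  rw [(hasFDerivAt_compC κ A B hA hB p).fderiv]
  simp
  ring

theorem fderiv_compC_y (κ : ℝ) (A B : ℝ → ℝ) (hA : Differentiable ℝ A)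
    (hB : Differentiable ℝ B) (p : ℝ × ℝ) :
    fderiv ℝ (compC κ A B) p (0, 1)
      = -κ * (A p.1 * Real.sin (κ * p.2) + B p.1 * Real.cos (κ * p.2)) := by
  rw [(hasFDerivAt_compC κ A B hA hB p).fderiv]
  simp
  ring

theorem fderiv_compS_x (κ : ℝ) (A B : ℝ → ℝ) (hA : Differentiable ℝ A)
    (hB : Differentiable ℝ B) (p : ℝ × ℝ) :
    fderiv ℝ (compS κ A B) p (1, 0)
      = deriv A p.1 * Real.sin (κ * p.2) + deriv B p.1 * Real.cos (κ * p.2) := by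
  rw [(hasFDerivAt_compS κ A B hA hB p).fderiv]
  simp
  ring

theorem fderiv_compS_y (κ : ℝ) (A B : ℝ → ℝ) (hA : Differentiable ℝ A)
    (hB : Differentiable ℝ B) (p : ℝ × ℝ) :
    fderiv ℝ (compS κ A B) p (0, 1)
      = κ * (A p.1 * Real.cos (κ * p.2) - B p.1 * Real.sin (κ * p.2)) := by
  rw [(hasFDerivAt_compS κ A B hA hB p).fderiv]
  simp
  ring

theorem contDiff_compC (κ : ℝ) (A B : ℝ → ℝ) (hA : ContDiff ℝ ∞ A) (hB : ContDiff ℝ ∞ B) :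
    ContDiff ℝ ∞ (compC κ A B) := by
  unfold compC
  fun_prop

theorem contDiff_compS (κ : ℝ) (A B : ℝ → ℝ) (hA : ContDiff ℝ ∞ A) (hB : ContDiff ℝ ∞ B) :
    ContDiff ℝ ∞ (compS κ A B) := by
  unfold compS
  fun_prop


/-- The equivariant map `(x, y) ↦ (e^{i κ₁ y} (b₁ + i b₂)(x), e^{i κ₂ y} (d₁ + i d₂)(x))` into
Euclidean `ℝ⁴`. -/
noncomputable def equivMap (κ1 κ2 : ℝ) (b1 b2 d1 d2 : ℝ → ℝ) (q : ℝ × ℝ) :
    EuclideanSpace ℝ (Fin 4) :=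
  WithLp.toLp 2 ![compC κ1 b1 b2 q, compS κ1 b1 b2 q, compC κ2 d1 d2 q, compS κ2 d1 d2 q]

theorem contDiff_equivMap (κ1 κ2 : ℝ) (b1 b2 d1 d2 : ℝ → ℝ)
    (hb1 : ContDiff ℝ ∞ b1) (hb2 : ContDiff ℝ ∞ b2) (hd1 : ContDiff ℝ ∞ d1)
    (hd2 : ContDiff ℝ ∞ d2) : ContDiff ℝ ∞ (equivMap κ1 κ2 b1 b2 d1 d2) := by
  rw [contDiff_euclidean]
  intro i
  fin_cases i
  · exact contDiff_compC κ1 b1 b2 hb1 hb2
  · exact contDiff_compS κ1 b1 b2 hb1 hb2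
  · exact contDiff_compC κ2 d1 d2 hd1 hd2
  · exact contDiff_compS κ2 d1 d2 hd1 hd2

/-- The metric induced by the equivariant map. -/
theorem equivMap_metric (κ1 κ2 : ℝ) (b1 b2 d1 d2 : ℝ → ℝ)
    (hb1 : ContDiff ℝ ∞ b1) (hb2 : ContDiff ℝ ∞ b2) (hd1 : ContDiff ℝ ∞ d1)
    (hd2 : ContDiff ℝ ∞ d2) (p : ℝ × ℝ) :
    inner ℝ (fderiv ℝ (equivMap κ1 κ2 b1 b2 d1 d2) p (1, 0))
        (fderiv ℝ (equivMap κ1 κ2 b1 b2 d1 d2) p (1, 0))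
      = deriv b1 p.1 ^ 2 + deriv b2 p.1 ^ 2 + deriv d1 p.1 ^ 2 + deriv d2 p.1 ^ 2 ∧
    inner ℝ (fderiv ℝ (equivMap κ1 κ2 b1 b2 d1 d2) p (1, 0))
        (fderiv ℝ (equivMap κ1 κ2 b1 b2 d1 d2) p (0, 1))
      = κ1 * (b1 p.1 * deriv b2 p.1 - b2 p.1 * deriv b1 p.1)
        + κ2 * (d1 p.1 * deriv d2 p.1 - d2 p.1 * deriv d1 p.1) ∧
    inner ℝ (fderiv ℝ (equivMap κ1 κ2 b1 b2 d1 d2) p (0, 1))
        (fderiv ℝ (equivMap κ1 κ2 b1 b2 d1 d2) p (0, 1))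
      = κ1 ^ 2 * (b1 p.1 ^ 2 + b2 p.1 ^ 2) + κ2 ^ 2 * (d1 p.1 ^ 2 + d2 p.1 ^ 2) := by
  have hdb1 : Differentiable ℝ b1 := hb1.differentiable (by simp)
  have hdb2 : Differentiable ℝ b2 := hb2.differentiable (by simp)
  have hdd1 : Differentiable ℝ d1 := hd1.differentiable (by simp)
  have hdd2 : Differentiable ℝ d2 := hd2.differentiable (by simp)
  have hd : DifferentiableAt ℝ (equivMap κ1 κ2 b1 b2 d1 d2) p :=
    (contDiff_equivMap κ1 κ2 b1 b2 d1 d2 hb1 hb2 hd1 hd2).differentiable (by simp) p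
  have hcoord : ∀ (i : Fin 4) (v : ℝ × ℝ),
      (fderiv ℝ (equivMap κ1 κ2 b1 b2 d1 d2) p v) i
        = fderiv ℝ (fun q => equivMap κ1 κ2 b1 b2 d1 d2 q i) p v := by
    intro i v
    have h := ((hasFDerivWithinAt_euclidean (t := Set.univ)).mp
      hd.hasFDerivAt.hasFDerivWithinAt i).hasFDerivAt Filter.univ_mem
    rw [h.fderiv]
    rfl
  have e0 : (fun q => equivMap κ1 κ2 b1 b2 d1 d2 q 0) = compC κ1 b1 b2 := rfl
  have e1 : (fun q => equivMap κ1 κ2 b1 b2 d1 d2 q 1) = compS κ1 b1 b2 := rfl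
  have e2 : (fun q => equivMap κ1 κ2 b1 b2 d1 d2 q 2) = compC κ2 d1 d2 := rfl
  have e3 : (fun q => equivMap κ1 κ2 b1 b2 d1 d2 q 3) = compS κ2 d1 d2 := rfl
  have hc1 := Real.cos_sq_add_sin_sq (κ1 * p.2)
  have hc2 := Real.cos_sq_add_sin_sq (κ2 * p.2)
  simp only [PiLp.inner_apply, Fin.sum_univ_four, hcoord, e0, e1, e2, e3,
    fderiv_compC_x κ1 b1 b2 hdb1 hdb2, fderiv_compS_x κ1 b1 b2 hdb1 hdb2,
    fderiv_compC_x κ2 d1 d2 hdd1 hdd2, fderiv_compS_x κ2 d1 d2 hdd1 hdd2,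
    fderiv_compC_y κ1 b1 b2 hdb1 hdb2, fderiv_compS_y κ1 b1 b2 hdb1 hdb2,
    fderiv_compC_y κ2 d1 d2 hdd1 hdd2, fderiv_compS_y κ2 d1 d2 hdd1 hdd2,
    RCLike.inner_apply, conj_trivial]
  refine ⟨?_, ?_, ?_⟩
  · linear_combination (deriv b1 p.1 ^ 2 + deriv b2 p.1 ^ 2) * hc1
      + (deriv d1 p.1 ^ 2 + deriv d2 p.1 ^ 2) * hc2
  · linear_combination (κ1 * (b1 p.1 * deriv b2 p.1 - b2 p.1 * deriv b1 p.1)) * hc1
      + (κ2 * (d1 p.1 * deriv d2 p.1 - d2 p.1 * deriv d1 p.1)) * hc2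
  · linear_combination (κ1 ^ 2 * (b1 p.1 ^ 2 + b2 p.1 ^ 2)) * hc1
      + (κ2 ^ 2 * (d1 p.1 ^ 2 + d2 p.1 ^ 2)) * hc2


/-- Polar form: derivative of `ρ cos θ`. -/
theorem deriv_polar_cos (ρ θ : ℝ → ℝ) (hρ : Differentiable ℝ ρ) (hθ : Differentiable ℝ θ)
    (x : ℝ) : deriv (fun x => ρ x * Real.cos (θ x)) x
      = deriv ρ x * Real.cos (θ x) - ρ x * (Real.sin (θ x) * deriv θ x) := by
  have h : HasDerivAt (fun x => ρ x * Real.cos (θ x))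
      (deriv ρ x * Real.cos (θ x) + ρ x * (-Real.sin (θ x) * deriv θ x)) x :=
    (hρ x).hasDerivAt.mul (hθ x).hasDerivAt.cos
  rw [h.deriv]; ring

/-- Polar form: derivative of `ρ sin θ`. -/
theorem deriv_polar_sin (ρ θ : ℝ → ℝ) (hρ : Differentiable ℝ ρ) (hθ : Differentiable ℝ θ)
    (x : ℝ) : deriv (fun x => ρ x * Real.sin (θ x)) x
      = deriv ρ x * Real.sin (θ x) + ρ x * (Real.cos (θ x) * deriv θ x) := by
  have h : HasDerivAt (fun x => ρ x * Real.sin (θ x))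
      (deriv ρ x * Real.sin (θ x) + ρ x * (Real.cos (θ x) * deriv θ x)) x :=
    (hρ x).hasDerivAt.mul (hθ x).hasDerivAt.sin
  rw [h.deriv]

/-- Reduction of the isometric immersion problem for `S¹`-invariant torus metrics to a system of
ordinary differential relations for two moduli `ρ₁, ρ₂` and two phases `θ₁, θ₂`. -/
theorem exists_immersion_of_polar (E F G : ℝ → ℝ) (ρ1 θ1 ρ2 θ2 : ℝ → ℝ) (k1 k2 n1 n2 : ℤ)
    (hρ1 : ContDiff ℝ ∞ ρ1) (hθ1 : ContDiff ℝ ∞ θ1) (hρ2 : ContDiff ℝ ∞ ρ2)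
    (hθ2 : ContDiff ℝ ∞ θ2)
    (pρ1 : ∀ x, ρ1 (x + 1) = ρ1 x) (pρ2 : ∀ x, ρ2 (x + 1) = ρ2 x)
    (pθ1 : ∀ x, θ1 (x + 1) = θ1 x + n1 * (2 * Real.pi))
    (pθ2 : ∀ x, θ2 (x + 1) = θ2 x + n2 * (2 * Real.pi))
    (hE : ∀ x, deriv ρ1 x ^ 2 + ρ1 x ^ 2 * deriv θ1 x ^ 2 + deriv ρ2 x ^ 2
      + ρ2 x ^ 2 * deriv θ2 x ^ 2 = E x)
    (hF : ∀ x, (k1 * (2 * Real.pi)) * (ρ1 x ^ 2 * deriv θ1 x)
      + (k2 * (2 * Real.pi)) * (ρ2 x ^ 2 * deriv θ2 x) = F x)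
    (hG : ∀ x, (k1 * (2 * Real.pi)) ^ 2 * ρ1 x ^ 2 + (k2 * (2 * Real.pi)) ^ 2 * ρ2 x ^ 2 = G x) :
    ∃ Φ : ℝ × ℝ → EuclideanSpace ℝ (Fin 4),
      ContDiff ℝ ∞ Φ ∧ (∀ p : ℝ × ℝ, Φ (p.1 + 1, p.2) = Φ p) ∧
      (∀ p : ℝ × ℝ, Φ (p.1, p.2 + 1) = Φ p) ∧
      ∀ p : ℝ × ℝ,
        inner ℝ (fderiv ℝ Φ p (1, 0)) (fderiv ℝ Φ p (1, 0)) = E p.1 ∧
        inner ℝ (fderiv ℝ Φ p (1, 0)) (fderiv ℝ Φ p (0, 1)) = F p.1 ∧
        inner ℝ (fderiv ℝ Φ p (0, 1)) (fderiv ℝ Φ p (0, 1)) = G p.1 := by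
  have dρ1 : Differentiable ℝ ρ1 := hρ1.differentiable (by simp)
  have dθ1 : Differentiable ℝ θ1 := hθ1.differentiable (by simp)
  have dρ2 : Differentiable ℝ ρ2 := hρ2.differentiable (by simp)
  have dθ2 : Differentiable ℝ θ2 := hθ2.differentiable (by simp)
  set b1 : ℝ → ℝ := fun x => ρ1 x * Real.cos (θ1 x) with hb1
  set b2 : ℝ → ℝ := fun x => ρ1 x * Real.sin (θ1 x) with hb2
  set d1 : ℝ → ℝ := fun x => ρ2 x * Real.cos (θ2 x) with hd1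
  set d2 : ℝ → ℝ := fun x => ρ2 x * Real.sin (θ2 x) with hd2
  have cb1 : ContDiff ℝ ∞ b1 := by rw [hb1]; fun_prop
  have cb2 : ContDiff ℝ ∞ b2 := by rw [hb2]; fun_prop
  have cd1 : ContDiff ℝ ∞ d1 := by rw [hd1]; fun_prop
  have cd2 : ContDiff ℝ ∞ d2 := by rw [hd2]; fun_prop
  have pb1 : ∀ x, b1 (x + 1) = b1 x := by
    intro x; simp only [hb1, pρ1, pθ1, Real.cos_add_int_mul_two_pi]
  have pb2 : ∀ x, b2 (x + 1) = b2 x := by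
    intro x; simp only [hb2, pρ1, pθ1, Real.sin_add_int_mul_two_pi]
  have pd1 : ∀ x, d1 (x + 1) = d1 x := by
    intro x; simp only [hd1, pρ2, pθ2, Real.cos_add_int_mul_two_pi]
  have pd2 : ∀ x, d2 (x + 1) = d2 x := by
    intro x; simp only [hd2, pρ2, pθ2, Real.sin_add_int_mul_two_pi]
  refine ⟨equivMap (k1 * (2 * Real.pi)) (k2 * (2 * Real.pi)) b1 b2 d1 d2,
    contDiff_equivMap _ _ b1 b2 d1 d2 cb1 cb2 cd1 cd2, ?_, ?_, ?_⟩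
  · intro p
    simp only [equivMap, compC, compS, pb1, pb2, pd1, pd2]
  · intro p
    have e1 : (k1 : ℝ) * (2 * Real.pi) * (p.2 + 1)
        = (k1 : ℝ) * (2 * Real.pi) * p.2 + k1 * (2 * Real.pi) := by ring
    have e2 : (k2 : ℝ) * (2 * Real.pi) * (p.2 + 1)
        = (k2 : ℝ) * (2 * Real.pi) * p.2 + k2 * (2 * Real.pi) := by ring
    simp only [equivMap, compC, compS, e1, e2, Real.cos_add_int_mul_two_pi,
      Real.sin_add_int_mul_two_pi]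
  · intro p
    obtain ⟨h1, h2, h3⟩ := equivMap_metric (k1 * (2 * Real.pi)) (k2 * (2 * Real.pi))
      b1 b2 d1 d2 cb1 cb2 cd1 cd2 p
    have hs1 := Real.cos_sq_add_sin_sq (θ1 p.1)
    have hs2 := Real.cos_sq_add_sin_sq (θ2 p.1)
    have eb1 := deriv_polar_cos ρ1 θ1 dρ1 dθ1 p.1
    have eb2 := deriv_polar_sin ρ1 θ1 dρ1 dθ1 p.1
    have ed1 := deriv_polar_cos ρ2 θ2 dρ2 dθ2 p.1
    have ed2 := deriv_polar_sin ρ2 θ2 dρ2 dθ2 p.1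
    refine ⟨?_, ?_, ?_⟩
    · rw [h1, ← hE p.1]
      simp only [hb1, hb2, hd1, hd2]
      rw [eb1, eb2, ed1, ed2]
      linear_combination (deriv ρ1 p.1 ^ 2 + ρ1 p.1 ^ 2 * deriv θ1 p.1 ^ 2) * hs1
        + (deriv ρ2 p.1 ^ 2 + ρ2 p.1 ^ 2 * deriv θ2 p.1 ^ 2) * hs2
    · rw [h2, ← hF p.1]
      simp only [hb1, hb2, hd1, hd2]
      rw [eb1, eb2, ed1, ed2]
      linear_combination ((k1 * (2 * Real.pi)) * (ρ1 p.1 ^ 2 * deriv θ1 p.1)) * hs1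
        + ((k2 * (2 * Real.pi)) * (ρ2 p.1 ^ 2 * deriv θ2 p.1)) * hs2
    · rw [h3, ← hG p.1]
      simp only [hb1, hb2, hd1, hd2]
      linear_combination ((k1 * (2 * Real.pi)) ^ 2 * ρ1 p.1 ^ 2) * hs1
        + ((k2 * (2 * Real.pi)) ^ 2 * ρ2 p.1 ^ 2) * hs2

end Vale.Agent.H55.Imm
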