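import Mathlib

/-!
# A `p`-tower on the free group of rank two

Sanov-type embedding of `FreeGroup (Fin 2)` into the special linear group of integer
two by two matrices (ping-pong on nonzero integer vectors) and the congruence filtration.
-/

namespace Vale.Agent.H55.Tower

open Matrix

/-- Nonzero integer vectors. -/
abbrev NZ : Type := {v : Fin 2 → ℤ // v ≠ 0}

theorem mulVec_ne_zero (M : Matrix.SpecialLinearGroup (Fin 2) ℤ) (v : Fin 2 → ℤ) (hv : v ≠ 0) :
    (M : Matrix (Fin 2) (Fin 2) ℤ) *ᵥ v ≠ 0 := by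
  intro h
  apply hv
  have h1 : ((M⁻¹ * M : Matrix.SpecialLinearGroup (Fin 2) ℤ) : Matrix (Fin 2) (Fin 2) ℤ) *ᵥ v
      = v := by
    rw [inv_mul_cancel, Matrix.SpecialLinearGroup.coe_one, Matrix.one_mulVec]
  rw [← h1, Matrix.SpecialLinearGroup.coe_mul, ← Matrix.mulVec_mulVec, h, Matrix.mulVec_zero]

/-- A matrix of determinant one moves a nonzero vector to a nonzero vector. -/
def act (M : Matrix.SpecialLinearGroup (Fin 2) ℤ) (v : NZ) : NZ :=
  ⟨(M : Matrix (Fin 2) (Fin 2) ℤ) *ᵥ v.1, mulVec_ne_zero M v.1 v.2⟩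

/-- The action of integer matrices of determinant one on nonzero vectors. -/
@[reducible] def actNZ : MulAction (Matrix.SpecialLinearGroup (Fin 2) ℤ) NZ where
  smul := act
  one_smul v := Subtype.ext (by
    show ((1 : Matrix.SpecialLinearGroup (Fin 2) ℤ) : Matrix (Fin 2) (Fin 2) ℤ) *ᵥ v.1 = v.1
    rw [Matrix.SpecialLinearGroup.coe_one, Matrix.one_mulVec])
  mul_smul M N v := Subtype.ext (by
    show (↑(M * N) : Matrix (Fin 2) (Fin 2) ℤ) *ᵥ v.1 = (M : Matrix (Fin 2) (Fin 2) ℤ) *ᵥ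
      ((N : Matrix (Fin 2) (Fin 2) ℤ) *ᵥ v.1)
    rw [Matrix.SpecialLinearGroup.coe_mul, Matrix.mulVec_mulVec])

theorem act_apply (M : Matrix.SpecialLinearGroup (Fin 2) ℤ) (v : NZ) :
    (act M v).1 0 = M.1 0 0 * v.1 0 + M.1 0 1 * v.1 1 ∧
      (act M v).1 1 = M.1 1 0 * v.1 0 + M.1 1 1 * v.1 1 := by
  simp [act]

/-- The first generator. -/
def genA (p : ℕ) : Matrix.SpecialLinearGroup (Fin 2) ℤ :=
  ⟨!![1, (p : ℤ); 0, 1], by simp [Matrix.det_fin_two]⟩

/-- The second generator. -/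
def genB (p : ℕ) : Matrix.SpecialLinearGroup (Fin 2) ℤ :=
  ⟨!![1, 0; (p : ℤ), 1], by simp [Matrix.det_fin_two]⟩

/-- The two generators. -/
def gens (p : ℕ) : Fin 2 → Matrix.SpecialLinearGroup (Fin 2) ℤ := ![genA p, genB p]

theorem genA_val (p : ℕ) : (genA p).1 = !![1, (p : ℤ); 0, 1] := rfl

theorem genB_val (p : ℕ) : (genB p).1 = !![1, 0; (p : ℤ), 1] := rfl

theorem genA_inv_val (p : ℕ) : ((genA p)⁻¹).1 = !![1, -(p : ℤ); 0, 1] := by
  rw [Matrix.SpecialLinearGroup.coe_inv, genA_val, Matrix.adjugate_fin_two_of]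
  simp

theorem genB_inv_val (p : ℕ) : ((genB p)⁻¹).1 = !![1, 0; -(p : ℤ), 1] := by
  rw [Matrix.SpecialLinearGroup.coe_inv, genB_val, Matrix.adjugate_fin_two_of]
  simp

theorem genA_act (p : ℕ) (v : NZ) :
    (act (genA p) v).1 0 = v.1 0 + p * v.1 1 ∧ (act (genA p) v).1 1 = v.1 1 := by
  have h := act_apply (genA p) v
  rw [genA_val] at h
  simpa using h

theorem genA_inv_act (p : ℕ) (v : NZ) :
    (act (genA p)⁻¹ v).1 0 = v.1 0 - p * v.1 1 ∧ (act (genA p)⁻¹ v).1 1 = v.1 1 := by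
  have h := act_apply (genA p)⁻¹ v
  rw [genA_inv_val] at h
  constructor
  · rw [h.1]; simp; ring
  · rw [h.2]; simp

theorem genB_act (p : ℕ) (v : NZ) :
    (act (genB p) v).1 0 = v.1 0 ∧ (act (genB p) v).1 1 = p * v.1 0 + v.1 1 := by
  have h := act_apply (genB p) v
  rw [genB_val] at h
  simpa using h

theorem genB_inv_act (p : ℕ) (v : NZ) :
    (act (genB p)⁻¹ v).1 0 = v.1 0 ∧ (act (genB p)⁻¹ v).1 1 = v.1 1 - p * v.1 0 := by
  have h := act_apply (genB p)⁻¹ v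
  rw [genB_inv_val] at h
  constructor
  · rw [h.1]; simp
  · rw [h.2]; simp; ring

/-- The ping-pong sets. -/
def setX : Fin 2 → Set NZ :=
  ![{v | v.1 1 = 0 ∨ v.1 1 ^ 2 < v.1 0 * v.1 1}, {v | v.1 0 ^ 2 ≤ v.1 0 * v.1 1}]

/-- The ping-pong sets for the inverses. -/
def setY : Fin 2 → Set NZ :=
  ![{v | v.1 1 ≠ 0 ∧ v.1 0 * v.1 1 ≤ -(v.1 1 ^ 2)}, {v | v.1 0 * v.1 1 < -(v.1 0 ^ 2)}]

theorem nz_cases (v : NZ) : v.1 0 ≠ 0 ∨ v.1 1 ≠ 0 := by
  by_contra h
  rw [not_or, not_not, not_not] at h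
  apply v.2
  funext i
  fin_cases i
  · exact h.1
  · exact h.2

theorem pp1 (x y : ℤ) (hv : x ≠ 0 ∨ y ≠ 0) (h0 : y = 0 ∨ y ^ 2 < x * y) (h1 : x ^ 2 ≤ x * y) :
    False := by
  rcases h0 with h0 | h0
  · rw [h0] at h1
    have hx : x = 0 := by nlinarith [sq_nonneg x]
    rcases hv with h | h
    · exact h hx
    · exact h h0
  · nlinarith [sq_nonneg (x - y)]

theorem pp2 (x y : ℤ) (h0 : y ≠ 0 ∧ x * y ≤ -(y ^ 2)) (h1 : x * y < -(x ^ 2)) : False := by
  nlinarith [sq_nonneg (x + y)]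

theorem pp3 (x y : ℤ) (h0 : y = 0 ∨ y ^ 2 < x * y) (h1 : y ≠ 0 ∧ x * y ≤ -(y ^ 2)) :
    False := by
  rcases h0 with h0 | h0
  · exact h1.1 h0
  · nlinarith [sq_nonneg y, h1.2]

theorem pp4 (x y : ℤ) (h0 : y = 0 ∨ y ^ 2 < x * y) (h1 : x * y < -(x ^ 2)) : False := by
  rcases h0 with h0 | h0
  · rw [h0] at h1
    nlinarith [sq_nonneg x]
  · nlinarith [sq_nonneg x, sq_nonneg y]

theorem pp5 (x y : ℤ) (h0 : x ^ 2 ≤ x * y) (h1 : y ≠ 0 ∧ x * y ≤ -(y ^ 2)) : False := by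
  have hy0 : y ≠ 0 := h1.1
  have hy : 0 < y ^ 2 := by positivity
  nlinarith [sq_nonneg x, h1.2]

theorem pp6 (x y : ℤ) (hv : x ≠ 0 ∨ y ≠ 0) (h0 : x ^ 2 ≤ x * y) (h1 : x * y < -(x ^ 2)) :
    False := by
  have hx : x ≠ 0 := by
    rintro rfl
    simp at h1
  nlinarith [sq_nonneg x]

theorem mv1 (p x y : ℤ) (hp : 2 ≤ p) (h : ¬(y ≠ 0 ∧ x * y ≤ -(y ^ 2))) :
    y = 0 ∨ y ^ 2 < (x + p * y) * y := by
  by_cases hy : y = 0
  · exact Or.inl hy
  · right
    have h1 : -(y ^ 2) < x * y := by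
      by_contra hc
      exact h ⟨hy, not_lt.mp hc⟩
    have hy2 : 0 < y ^ 2 := by positivity
    nlinarith [mul_le_mul_of_nonneg_right hp hy2.le]

theorem mv2 (p x y : ℤ) (hp : 2 ≤ p) (h : ¬(y = 0 ∨ y ^ 2 < x * y)) :
    y ≠ 0 ∧ (x - p * y) * y ≤ -(y ^ 2) := by
  rw [not_or, not_lt] at h
  refine ⟨h.1, ?_⟩
  nlinarith [mul_le_mul_of_nonneg_right hp (sq_nonneg y), h.2]

theorem mv3 (p x y : ℤ) (hp : 2 ≤ p) (h : ¬(x * y < -(x ^ 2))) :
    x ^ 2 ≤ x * (p * x + y) := by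
  rw [not_lt] at h
  nlinarith [mul_le_mul_of_nonneg_right hp (sq_nonneg x)]

theorem mv4 (p x y : ℤ) (hp : 2 ≤ p) (h : ¬(x ^ 2 ≤ x * y)) :
    x * (y - p * x) < -(x ^ 2) := by
  rw [not_le] at h
  nlinarith [mul_le_mul_of_nonneg_right hp (sq_nonneg x)]

theorem gens_injective (p : ℕ) (hp : 2 ≤ p) : Function.Injective (FreeGroup.lift (gens p)) := by
  let _ := actNZ
  have hp' : (2 : ℤ) ≤ p := by exact_mod_cast hp
  have d01 : Disjoint (setX 0) (setX 1) :=
    Set.disjoint_left.mpr fun v h0 h1 => pp1 _ _ (nz_cases v) h0 h1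
  have e01 : Disjoint (setY 0) (setY 1) :=
    Set.disjoint_left.mpr fun v h0 h1 => pp2 _ _ h0 h1
  refine FreeGroup.injective_lift_of_ping_pong (gens p) setX setY ?_ ?_ ?_ ?_ ?_ ?_
  · intro i
    fin_cases i
    · exact ⟨⟨![1, 0], by intro h; have := congrFun h 0; simp at this⟩, Or.inl (by simp)⟩
    · exact ⟨⟨![0, 1], by intro h; have := congrFun h 1; simp at this⟩, by
        show (![0, 1] : Fin 2 → ℤ) 0 ^ 2 ≤ (![0, 1] : Fin 2 → ℤ) 0 * (![0, 1] : Fin 2 → ℤ) 1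
        simp⟩
  · intro i j hij
    fin_cases i <;> fin_cases j
    · exact absurd rfl hij
    · exact d01
    · exact d01.symm
    · exact absurd rfl hij
  · intro i j hij
    fin_cases i <;> fin_cases j
    · exact absurd rfl hij
    · exact e01
    · exact e01.symm
    · exact absurd rfl hij
  · intro i j
    fin_cases i <;> fin_cases j
    · exact Set.disjoint_left.mpr fun v h0 h1 => pp3 _ _ h0 h1
    · exact Set.disjoint_left.mpr fun v h0 h1 => pp4 _ _ h0 h1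
    · exact Set.disjoint_left.mpr fun v h0 h1 => pp5 _ _ h0 h1
    · exact Set.disjoint_left.mpr fun v h0 h1 => pp6 _ _ (nz_cases v) h0 h1
  · intro i
    fin_cases i
    · rw [Set.smul_set_subset_iff]
      intro v hv
      show (act (genA p) v).1 1 = 0 ∨ (act (genA p) v).1 1 ^ 2 <
        (act (genA p) v).1 0 * (act (genA p) v).1 1
      rw [(genA_act p v).1, (genA_act p v).2]
      exact mv1 p _ _ hp' hv
    · rw [Set.smul_set_subset_iff]
      intro v hv
      show (act (genB p) v).1 0 ^ 2 ≤ (act (genB p) v).1 0 * (act (genB p) v).1 1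
      rw [(genB_act p v).1, (genB_act p v).2]
      exact mv3 p _ _ hp' hv
  · intro i
    fin_cases i
    · rw [Set.smul_set_subset_iff]
      intro v hv
      show (act (genA p)⁻¹ v).1 1 ≠ 0 ∧
        (act (genA p)⁻¹ v).1 0 * (act (genA p)⁻¹ v).1 1 ≤ -((act (genA p)⁻¹ v).1 1 ^ 2)
      rw [(genA_inv_act p v).1, (genA_inv_act p v).2]
      exact mv2 p _ _ hp' hv
    · rw [Set.smul_set_subset_iff]
      intro v hv
      show (act (genB p)⁻¹ v).1 0 * (act (genB p)⁻¹ v).1 1 < -((act (genB p)⁻¹ v).1 0 ^ 2)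
      rw [(genB_inv_act p v).1, (genB_inv_act p v).2]
      exact mv4 p _ _ hp' hv

/-- A matrix of determinant one reduces to the identity modulo `n` exactly when it is the
identity plus `n` times an integer matrix. -/
theorem map_eq_one_iff (n : ℕ) (M : Matrix.SpecialLinearGroup (Fin 2) ℤ) :
    Matrix.SpecialLinearGroup.map (Int.castRingHom (ZMod n)) M = 1 ↔
      ∃ D : Matrix (Fin 2) (Fin 2) ℤ, (M : Matrix (Fin 2) (Fin 2) ℤ) = 1 + (n : ℤ) • D := by
  constructor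
  · intro h
    have hd : ∀ i j, (n : ℤ) ∣ M.1 i j - (1 : Matrix (Fin 2) (Fin 2) ℤ) i j := by
      intro i j
      have h1 := congrArg (fun X : Matrix.SpecialLinearGroup (Fin 2) (ZMod n) => X.1 i j) h
      simp only [Matrix.SpecialLinearGroup.map_apply_coe, RingHom.mapMatrix_apply,
        Matrix.map_apply, Matrix.SpecialLinearGroup.coe_one, eq_intCast] at h1
      rw [← ZMod.intCast_zmod_eq_zero_iff_dvd, Int.cast_sub, h1]
      by_cases hij : i = j
      · subst hij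
        rw [Matrix.one_apply_eq, Matrix.one_apply_eq]
        simp
      · rw [Matrix.one_apply_ne hij, Matrix.one_apply_ne hij]
        simp
    refine ⟨Matrix.of fun i j => (M.1 i j - (1 : Matrix (Fin 2) (Fin 2) ℤ) i j) / n, ?_⟩
    ext i j
    simp only [Matrix.add_apply, Matrix.smul_apply, Matrix.of_apply, smul_eq_mul]
    rw [Int.mul_ediv_cancel' (hd i j)]
    ring
  · rintro ⟨D, hD⟩
    apply Subtype.ext
    ext i j
    simp only [Matrix.SpecialLinearGroup.map_apply_coe, RingHom.mapMatrix_apply,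
      Matrix.map_apply, Matrix.SpecialLinearGroup.coe_one, eq_intCast, hD, Matrix.add_apply,
      Matrix.smul_apply, smul_eq_mul, Int.cast_add, Int.cast_mul, Int.cast_natCast,
      ZMod.natCast_self, zero_mul, add_zero]
    by_cases hij : i = j
    · subst hij
      rw [Matrix.one_apply_eq, Matrix.one_apply_eq]
      simp
    · rw [Matrix.one_apply_ne hij, Matrix.one_apply_ne hij]
      simp

theorem one_add_smul_pow (q : ℤ) (D : Matrix (Fin 2) (Fin 2) ℤ) (k : ℕ) :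
    ∃ E : Matrix (Fin 2) (Fin 2) ℤ,
      (1 + q • D) ^ k = 1 + ((k : ℤ) * q) • D + (q * q) • E := by
  induction k with
  | zero => exact ⟨0, by simp⟩
  | succ k ih =>
    obtain ⟨E, hE⟩ := ih
    refine ⟨(k : ℤ) • (D * D) + E + q • (E * D), ?_⟩
    rw [pow_succ, hE]
    simp only [mul_add, add_mul, mul_one, one_mul, smul_mul_assoc, mul_smul_comm, smul_add,
      smul_smul, Nat.cast_succ]
    module

theorem int_eq_zero_of_pow_dvd (p : ℕ) (hp : 2 ≤ p) (z : ℤ)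
    (h : ∀ c : ℕ, ((p ^ (c + 1) : ℕ) : ℤ) ∣ z) : z = 0 := by
  by_contra hz
  have h2 : p ^ (z.natAbs + 1) ∣ z.natAbs := Int.natCast_dvd.mp (h z.natAbs)
  have h3 := Nat.le_of_dvd (Int.natAbs_pos.mpr hz) h2
  have h4 : z.natAbs + 1 < p ^ (z.natAbs + 1) := Nat.lt_pow_self (by omega)
  omega

/-- The representation reduced modulo `p^(c+1)`. -/
noncomputable def rhoC (p c : ℕ) :
    FreeGroup (Fin 2) →* Matrix.SpecialLinearGroup (Fin 2) (ZMod (p ^ (c + 1))) :=
  (Matrix.SpecialLinearGroup.map (Int.castRingHom (ZMod (p ^ (c + 1))))).comp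
    (FreeGroup.lift (gens p))

theorem rhoC_eq_one_iff (p c : ℕ) (u : FreeGroup (Fin 2)) :
    rhoC p c u = 1 ↔ ∃ D : Matrix (Fin 2) (Fin 2) ℤ,
      ((FreeGroup.lift (gens p) u : Matrix.SpecialLinearGroup (Fin 2) ℤ) :
        Matrix (Fin 2) (Fin 2) ℤ) = 1 + ((p ^ (c + 1) : ℕ) : ℤ) • D :=
  map_eq_one_iff (p ^ (c + 1)) _

theorem rhoC_zero (p : ℕ) (u : FreeGroup (Fin 2)) : rhoC p 0 u = 1 := by
  have h : rhoC p 0 = 1 := by
    apply FreeGroup.ext_hom
    intro a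
    rw [MonoidHom.one_apply, rhoC_eq_one_iff, FreeGroup.lift_apply_of]
    fin_cases a
    · refine ⟨!![0, 1; 0, 0], ?_⟩
      ext i j
      fin_cases i <;> fin_cases j <;> simp [gens, genA]
    · refine ⟨!![0, 0; 1, 0], ?_⟩
      ext i j
      fin_cases i <;> fin_cases j <;> simp [gens, genB]
  rw [h, MonoidHom.one_apply]

theorem rhoC_step (p c : ℕ) (u : FreeGroup (Fin 2)) (h : rhoC p c u = 1) :
    rhoC p (c + 1) (u ^ p) = 1 := by
  rw [rhoC_eq_one_iff] at h ⊢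
  obtain ⟨D, hD⟩ := h
  obtain ⟨E, hE⟩ := one_add_smul_pow ((p ^ (c + 1) : ℕ) : ℤ) D p
  refine ⟨D + ((p ^ c : ℕ) : ℤ) • E, ?_⟩
  rw [map_pow, Matrix.SpecialLinearGroup.coe_pow, hD, hE, smul_add, smul_smul, add_assoc]
  congr 2
  · congr 1
    push_cast
    ring
  · congr 1
    push_cast
    ring

theorem rhoC_pow (p : ℕ) : ∀ (c : ℕ) (u : FreeGroup (Fin 2)), rhoC p c (u ^ p ^ c) = 1 := by
  intro c
  induction c with
  | zero => intro u; exact rhoC_zero p _
  | succ c ih =>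
    intro u
    have e : u ^ p ^ (c + 1) = (u ^ p ^ c) ^ p := by rw [pow_succ, pow_mul]
    rw [e]
    exact rhoC_step p c _ (ih u)

theorem rhoC_sep (p : ℕ) (hp : 2 ≤ p) (u : FreeGroup (Fin 2)) (h : ∀ c, rhoC p c u = 1) :
    u = 1 := by
  apply gens_injective p hp
  rw [map_one]
  apply Subtype.ext
  ext i j
  rw [Matrix.SpecialLinearGroup.coe_one]
  have hz : (FreeGroup.lift (gens p) u).1 i j - (1 : Matrix (Fin 2) (Fin 2) ℤ) i j = 0 := by
    apply int_eq_zero_of_pow_dvd p hp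
    intro c
    obtain ⟨D, hD⟩ := (rhoC_eq_one_iff p c u).mp (h c)
    rw [hD]
    exact ⟨D i j, by simp only [Matrix.add_apply, Matrix.smul_apply, smul_eq_mul]; ring⟩
  linarith

/-- TASK TOWER: a `p`-tower on the free group of rank two. -/
theorem free2_tower (p : ℕ) (hp : p.Prime) :
    ∃ (P : ℕ → Type) (_ : ∀ c, Group (P c)) (_ : ∀ c, Finite (P c))
      (f : ∀ c, FreeGroup (Fin 2) →* P c),
      (∀ c, IsPGroup p (P c)) ∧ (∀ u, f 0 u = 1) ∧
      (∀ c u, f c u = 1 → f (c + 1) (u ^ p) = 1) ∧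
      (∀ u, (∀ c, f c u = 1) → u = 1) := by
  have hfin : ∀ c, Finite (Matrix.SpecialLinearGroup (Fin 2) (ZMod (p ^ (c + 1)))) := by
    intro c
    have : NeZero (p ^ (c + 1)) := ⟨pow_ne_zero _ hp.ne_zero⟩
    infer_instance
  have key : ∀ c u, (rhoC p c).rangeRestrict u = 1 ↔ rhoC p c u = 1 := by
    intro c u
    rw [Subtype.ext_iff]
    rfl
  refine ⟨fun c => (rhoC p c).range, fun c => inferInstance, fun c => ?_,
    fun c => (rhoC p c).rangeRestrict, ?_, ?_, ?_, ?_⟩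
  · have := hfin c
    infer_instance
  · intro c
    rintro ⟨g, u, rfl⟩
    refine ⟨c, ?_⟩
    have h1 : (⟨rhoC p c u, u, rfl⟩ : (rhoC p c).range) = (rhoC p c).rangeRestrict u := rfl
    rw [h1, ← map_pow, key]
    exact rhoC_pow p c u
  · intro u
    rw [key]
    exact rhoC_zero p u
  · intro c u h
    rw [key] at h ⊢
    exact rhoC_step p c u h
  · intro u h
    exact rhoC_sep p hp.two_le u (fun c => (key c u).mp (h c))

end Vale.Agent.H55.Tower
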