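import Mathlib

/-!
A periodic angle profile with three plateaus whose two phase integrals can be prescribed
modulo `2π`.
-/

namespace Vale.Agent.H55.Imm

open scoped ContDiff

/-- The derivative of the standard smooth transition function. -/
noncomputable def dst (t : ℝ) : ℝ := deriv Real.smoothTransition t

theorem contDiff_st : ContDiff ℝ ∞ Real.smoothTransition := Real.smoothTransition.contDiff

theorem contDiff_dst : ContDiff ℝ ∞ dst := (contDiff_infty_iff_deriv.mp contDiff_st).2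

theorem hasDerivAt_st (t : ℝ) : HasDerivAt Real.smoothTransition (dst t) t :=
  ((contDiff_st.differentiable (by simp)) t).hasDerivAt

theorem dst_of_nonpos {t : ℝ} (ht : t ≤ 0) : dst t = 0 := by
  have hmin : IsLocalMin Real.smoothTransition t := by
    apply Filter.Eventually.of_forall
    intro y
    rw [Real.smoothTransition.zero_of_nonpos ht]
    exact Real.smoothTransition.nonneg y
  exact hmin.deriv_eq_zero

theorem dst_of_one_le {t : ℝ} (ht : 1 ≤ t) : dst t = 0 := by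
  have hmax : IsLocalMax Real.smoothTransition t := by
    apply Filter.Eventually.of_forall
    intro y
    rw [Real.smoothTransition.one_of_one_le ht]
    exact Real.smoothTransition.le_one y
  exact hmax.deriv_eq_zero

theorem exists_dst_bound : ∃ M : ℝ, 0 < M ∧ ∀ t, |dst t| ≤ M := by
  obtain ⟨C, hC⟩ := isCompact_Icc.exists_bound_of_continuousOn
    (contDiff_dst.continuous.continuousOn (s := Set.Icc (0 : ℝ) 1))
  refine ⟨|C| + 1, by positivity, fun t => ?_⟩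
  by_cases h0 : t ≤ 0
  · rw [dst_of_nonpos h0]
    simp only [abs_zero]
    positivity
  by_cases h1 : 1 ≤ t
  · rw [dst_of_one_le h1]
    simp only [abs_zero]
    positivity
  · have h := hC t ⟨by linarith, by linarith⟩
    rw [Real.norm_eq_abs] at h
    linarith [le_abs_self C]

/-- Integral of a function that is constant on both sides of a transition window. -/
theorem integral_transition (h : ℝ → ℝ) (hc : Continuous h) (h0 : ∀ t, t ≤ 0 → h t = h 0)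
    (h1 : ∀ t, 1 ≤ t → h t = h 1) (a τ lo hi : ℝ) (hτ : 0 < τ) (hlo : lo ≤ a)
    (hhi : a + τ ≤ hi) :
    ∫ s in lo..hi, h ((s - a) / τ)
      = (a - lo) * h 0 + τ * (∫ t in (0 : ℝ)..1, h t) + (hi - a - τ) * h 1 := by
  have hcont : Continuous (fun s => h ((s - a) / τ)) := hc.comp (by fun_prop)
  have e1 : ∫ s in lo..a, h ((s - a) / τ) = (a - lo) * h 0 := by
    have : ∫ s in lo..a, h ((s - a) / τ) = ∫ s in lo..a, h 0 := by
      apply intervalIntegral.integral_congr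
      intro s hs
      rw [Set.uIcc_of_le hlo] at hs
      exact h0 _ (div_nonpos_of_nonpos_of_nonneg (by linarith [hs.2]) hτ.le)
    rw [this, intervalIntegral.integral_const, smul_eq_mul]
  have e3 : ∫ s in (a + τ)..hi, h ((s - a) / τ) = (hi - a - τ) * h 1 := by
    have : ∫ s in (a + τ)..hi, h ((s - a) / τ) = ∫ s in (a + τ)..hi, h 1 := by
      apply intervalIntegral.integral_congr
      intro s hs
      rw [Set.uIcc_of_le hhi] at hs
      exact h1 _ (by rw [le_div_iff₀ hτ]; linarith [hs.1])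
    rw [this, intervalIntegral.integral_const, smul_eq_mul]
    ring
  have e2 : ∫ s in a..(a + τ), h ((s - a) / τ) = τ * ∫ t in (0 : ℝ)..1, h t := by
    have key := intervalIntegral.integral_comp_div_sub (f := h) (a := a) (b := a + τ) hτ.ne'
      (a / τ)
    have hb : (a + τ) / τ - a / τ = 1 := by field_simp; ring
    rw [sub_self, hb, smul_eq_mul] at key
    rw [← key]
    apply intervalIntegral.integral_congr
    intro s _
    simp only [sub_div]
  rw [← intervalIntegral.integral_add_adjacent_intervals (hcont.intervalIntegrable lo a)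
      (hcont.intervalIntegrable a hi),
    ← intervalIntegral.integral_add_adjacent_intervals (hcont.intervalIntegrable a (a + τ))
      (hcont.intervalIntegrable (a + τ) hi), e1, e2, e3]
  ring

/-- The three-plateau profile: levels `π/4`, `π/3`, `π/6`, `π/4` with transitions of length `τ`
starting at `a1`, `a2`, `a3`. -/
noncomputable def prof (τ a1 a2 a3 : ℝ) (s : ℝ) : ℝ :=
  Real.pi / 4 + Real.pi / 12 * (Real.smoothTransition ((s - a1) / τ)
    - 2 * Real.smoothTransition ((s - a2) / τ) + Real.smoothTransition ((s - a3) / τ))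

/-- The derivative of the three-plateau profile. -/
noncomputable def dprof (τ a1 a2 a3 : ℝ) (s : ℝ) : ℝ :=
  Real.pi / 12 / τ * (dst ((s - a1) / τ) - 2 * dst ((s - a2) / τ) + dst ((s - a3) / τ))

theorem hasDerivAt_st_comp (τ a s : ℝ) :
    HasDerivAt (fun s => Real.smoothTransition ((s - a) / τ)) (dst ((s - a) / τ) / τ) s := by
  have h1 : HasDerivAt (fun s : ℝ => (s - a) / τ) (1 / τ) s :=
    ((hasDerivAt_id s).sub_const a).div_const τ
  have h2 := HasDerivAt.comp s (hasDerivAt_st ((s - a) / τ)) h1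
  have h3 : HasDerivAt (fun s => Real.smoothTransition ((s - a) / τ))
      (dst ((s - a) / τ) * (1 / τ)) s := h2
  exact h3.congr_deriv (by ring)

theorem hasDerivAt_prof (τ a1 a2 a3 s : ℝ) :
    HasDerivAt (prof τ a1 a2 a3) (dprof τ a1 a2 a3 s) s := by
  have h := (((hasDerivAt_st_comp τ a1 s).sub ((hasDerivAt_st_comp τ a2 s).const_mul 2)).add
    (hasDerivAt_st_comp τ a3 s)).const_mul (Real.pi / 12)
  have h2 := h.const_add (Real.pi / 4)
  have h3 : HasDerivAt (prof τ a1 a2 a3) (Real.pi / 12 * (dst ((s - a1) / τ) / τ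
      - 2 * (dst ((s - a2) / τ) / τ) + dst ((s - a3) / τ) / τ)) s := h2
  exact h3.congr_deriv (by unfold dprof; ring)

theorem contDiff_prof (τ a1 a2 a3 : ℝ) : ContDiff ℝ ∞ (prof τ a1 a2 a3) := by
  have h : ∀ a : ℝ, ContDiff ℝ ∞ (fun s : ℝ => Real.smoothTransition ((s - a) / τ)) :=
    fun a => contDiff_st.comp (by fun_prop)
  unfold prof
  exact contDiff_const.add (contDiff_const.mul (((h a1).sub (contDiff_const.mul (h a2))).add (h a3)))

theorem contDiff_dprof (τ a1 a2 a3 : ℝ) : ContDiff ℝ ∞ (dprof τ a1 a2 a3) := by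
  have h : ∀ a : ℝ, ContDiff ℝ ∞ (fun s : ℝ => dst ((s - a) / τ)) :=
    fun a => contDiff_dst.comp (by fun_prop)
  unfold dprof
  exact contDiff_const.mul (((h a1).sub (contDiff_const.mul (h a2))).add (h a3))

theorem prof_bounds (τ a1 a2 a3 s : ℝ) :
    Real.pi / 12 ≤ prof τ a1 a2 a3 s ∧ prof τ a1 a2 a3 s ≤ 5 * Real.pi / 12 := by
  unfold prof
  have h1 := Real.smoothTransition.nonneg ((s - a1) / τ)
  have h2 := Real.smoothTransition.nonneg ((s - a2) / τ)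
  have h3 := Real.smoothTransition.nonneg ((s - a3) / τ)
  have h1' := Real.smoothTransition.le_one ((s - a1) / τ)
  have h2' := Real.smoothTransition.le_one ((s - a2) / τ)
  have h3' := Real.smoothTransition.le_one ((s - a3) / τ)
  have hπ := Real.pi_pos
  constructor <;> nlinarith

theorem dprof_bound (M τ a1 a2 a3 s : ℝ) (hM : ∀ t, |dst t| ≤ M) (hτ : τ = 4 * M) (hM0 : 0 < M) :
    |dprof τ a1 a2 a3 s| ≤ 1 / 2 := by
  unfold dprof
  have h1 := abs_le.mp (hM ((s - a1) / τ))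
  have h2 := abs_le.mp (hM ((s - a2) / τ))
  have h3 := abs_le.mp (hM ((s - a3) / τ))
  have hπ := Real.pi_pos
  have hπ4 : Real.pi ≤ 4 := Real.pi_le_four
  have hc : 0 < Real.pi / 12 / τ := by rw [hτ]; positivity
  rw [abs_mul, abs_of_pos hc]
  have hX : |dst ((s - a1) / τ) - 2 * dst ((s - a2) / τ) + dst ((s - a3) / τ)| ≤ 4 * M := by
    rw [abs_le]; constructor <;> linarith [h1.1, h1.2, h2.1, h2.2, h3.1, h3.2]
  calc Real.pi / 12 / τ * |dst ((s - a1) / τ) - 2 * dst ((s - a2) / τ) + dst ((s - a3) / τ)|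
      ≤ Real.pi / 12 / τ * (4 * M) := mul_le_mul_of_nonneg_left hX hc.le
    _ = Real.pi / 12 := by rw [hτ]; field_simp
    _ ≤ 1 / 2 := by linarith

/-- On the first piece only the first transition is active. -/
theorem prof_piece1 (τ a1 a2 a3 s : ℝ) (hτ : 0 < τ) (h23 : a2 ≤ a3) (hs : s ≤ a2) :
    prof τ a1 a2 a3 s = Real.pi / 4 + Real.pi / 12 * Real.smoothTransition ((s - a1) / τ) ∧
    dprof τ a1 a2 a3 s = Real.pi / 12 / τ * dst ((s - a1) / τ) := by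
  have e2 : (s - a2) / τ ≤ 0 := div_nonpos_of_nonpos_of_nonneg (by linarith) hτ.le
  have e3 : (s - a3) / τ ≤ 0 := div_nonpos_of_nonpos_of_nonneg (by linarith) hτ.le
  unfold prof dprof
  rw [Real.smoothTransition.zero_of_nonpos e2, Real.smoothTransition.zero_of_nonpos e3,
    dst_of_nonpos e2, dst_of_nonpos e3]
  constructor <;> ring

/-- On the second piece only the second transition is active. -/
theorem prof_piece2 (τ a1 a2 a3 s : ℝ) (hτ : 0 < τ) (hs1 : a1 + τ ≤ s) (hs : s ≤ a3) :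
    prof τ a1 a2 a3 s = Real.pi / 3 + (-(Real.pi / 6)) * Real.smoothTransition ((s - a2) / τ) ∧
    dprof τ a1 a2 a3 s = (-(Real.pi / 6)) / τ * dst ((s - a2) / τ) := by
  have e1 : 1 ≤ (s - a1) / τ := by rw [le_div_iff₀ hτ]; linarith
  have e3 : (s - a3) / τ ≤ 0 := div_nonpos_of_nonpos_of_nonneg (by linarith) hτ.le
  unfold prof dprof
  rw [Real.smoothTransition.one_of_one_le e1, Real.smoothTransition.zero_of_nonpos e3,
    dst_of_one_le e1, dst_of_nonpos e3]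
  constructor <;> ring

/-- On the third piece only the third transition is active. -/
theorem prof_piece3 (τ a1 a2 a3 s : ℝ) (hτ : 0 < τ) (h12 : a1 ≤ a2) (hs1 : a2 + τ ≤ s) :
    prof τ a1 a2 a3 s = Real.pi / 6 + Real.pi / 12 * Real.smoothTransition ((s - a3) / τ) ∧
    dprof τ a1 a2 a3 s = Real.pi / 12 / τ * dst ((s - a3) / τ) := by
  have e1 : 1 ≤ (s - a1) / τ := by rw [le_div_iff₀ hτ]; linarith
  have e2 : 1 ≤ (s - a2) / τ := by rw [le_div_iff₀ hτ]; linarith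
  unfold prof dprof
  rw [Real.smoothTransition.one_of_one_le e1, Real.smoothTransition.one_of_one_le e2,
    dst_of_one_le e1, dst_of_one_le e2]
  constructor <;> ring

theorem prof_of_le (τ a1 a2 a3 s : ℝ) (hτ : 0 < τ) (h12 : a1 ≤ a2) (h23 : a2 ≤ a3)
    (hs : s ≤ a1) : prof τ a1 a2 a3 s = Real.pi / 4 ∧ dprof τ a1 a2 a3 s = 0 := by
  obtain ⟨h1, h2⟩ := prof_piece1 τ a1 a2 a3 s hτ h23 (by linarith)
  have e1 : (s - a1) / τ ≤ 0 := div_nonpos_of_nonpos_of_nonneg (by linarith) hτ.le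
  rw [h1, h2, Real.smoothTransition.zero_of_nonpos e1, dst_of_nonpos e1]
  constructor <;> ring

theorem prof_of_ge (τ a1 a2 a3 s : ℝ) (hτ : 0 < τ) (h12 : a1 ≤ a2) (h23 : a2 + τ ≤ a3)
    (hs : a3 + τ ≤ s) : prof τ a1 a2 a3 s = Real.pi / 4 ∧ dprof τ a1 a2 a3 s = 0 := by
  obtain ⟨h1, h2⟩ := prof_piece3 τ a1 a2 a3 s hτ h12 (by linarith)
  have e1 : 1 ≤ (s - a3) / τ := by rw [le_div_iff₀ hτ]; linarith
  rw [h1, h2, Real.smoothTransition.one_of_one_le e1, dst_of_one_le e1]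
  constructor <;> ring

/-- The integrand along one transition, as a function of the rescaled variable. -/
noncomputable def hfun (g : ℝ → ℝ → ℝ) (c Δ τ : ℝ) (t : ℝ) : ℝ :=
  g (c + Δ * Real.smoothTransition t) (Δ / τ * dst t)

theorem hfun_of_nonpos (g : ℝ → ℝ → ℝ) (c Δ τ : ℝ) (t : ℝ) (ht : t ≤ 0) :
    hfun g c Δ τ t = g c 0 := by
  unfold hfun
  rw [Real.smoothTransition.zero_of_nonpos ht, dst_of_nonpos ht]
  simp

theorem hfun_of_one_le (g : ℝ → ℝ → ℝ) (c Δ τ : ℝ) (t : ℝ) (ht : 1 ≤ t) :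
    hfun g c Δ τ t = g (c + Δ) 0 := by
  unfold hfun
  rw [Real.smoothTransition.one_of_one_le ht, dst_of_one_le ht]
  simp

/-- The integral of `g (P, P')` over a period of the three-plateau profile is an affine function
of the plateau lengths. -/
theorem integral_profile (g : ℝ → ℝ → ℝ) (τ a1 a2 a3 V : ℝ) (hτ : 0 < τ) (h1 : 0 ≤ a1)
    (h2 : a1 + τ ≤ a2) (h3 : a2 + τ ≤ a3) (h4 : a3 + τ ≤ V)
    (hf : Continuous (fun s => g (prof τ a1 a2 a3 s) (dprof τ a1 a2 a3 s)))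
    (c1 : Continuous (hfun g (Real.pi / 4) (Real.pi / 12) τ))
    (c2 : Continuous (hfun g (Real.pi / 3) (-(Real.pi / 6)) τ))
    (c3 : Continuous (hfun g (Real.pi / 6) (Real.pi / 12) τ)) :
    ∫ s in (0 : ℝ)..V, g (prof τ a1 a2 a3 s) (dprof τ a1 a2 a3 s)
      = (a1 + (V - a3 - τ)) * g (Real.pi / 4) 0 + (a2 - a1 - τ) * g (Real.pi / 3) 0
        + (a3 - a2 - τ) * g (Real.pi / 6) 0
        + τ * ((∫ t in (0 : ℝ)..1, hfun g (Real.pi / 4) (Real.pi / 12) τ t)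
          + (∫ t in (0 : ℝ)..1, hfun g (Real.pi / 3) (-(Real.pi / 6)) τ t)
          + (∫ t in (0 : ℝ)..1, hfun g (Real.pi / 6) (Real.pi / 12) τ t)) := by
  have p1 : ∫ s in (0 : ℝ)..a2, g (prof τ a1 a2 a3 s) (dprof τ a1 a2 a3 s)
      = ∫ s in (0 : ℝ)..a2, hfun g (Real.pi / 4) (Real.pi / 12) τ ((s - a1) / τ) := by
    apply intervalIntegral.integral_congr
    intro s hs
    rw [Set.uIcc_of_le (by linarith)] at hs
    obtain ⟨e1, e2⟩ := prof_piece1 τ a1 a2 a3 s hτ (by linarith) hs.2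
    simp only [hfun, e1, e2]
  have p2 : ∫ s in a2..a3, g (prof τ a1 a2 a3 s) (dprof τ a1 a2 a3 s)
      = ∫ s in a2..a3, hfun g (Real.pi / 3) (-(Real.pi / 6)) τ ((s - a2) / τ) := by
    apply intervalIntegral.integral_congr
    intro s hs
    rw [Set.uIcc_of_le (by linarith)] at hs
    obtain ⟨e1, e2⟩ := prof_piece2 τ a1 a2 a3 s hτ (by linarith [hs.1]) hs.2
    simp only [hfun, e1, e2]
  have p3 : ∫ s in a3..V, g (prof τ a1 a2 a3 s) (dprof τ a1 a2 a3 s)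
      = ∫ s in a3..V, hfun g (Real.pi / 6) (Real.pi / 12) τ ((s - a3) / τ) := by
    apply intervalIntegral.integral_congr
    intro s hs
    rw [Set.uIcc_of_le (by linarith)] at hs
    obtain ⟨e1, e2⟩ := prof_piece3 τ a1 a2 a3 s hτ (by linarith) (by linarith [hs.1])
    simp only [hfun, e1, e2]
  have q1 := integral_transition (hfun g (Real.pi / 4) (Real.pi / 12) τ) c1
    (fun t ht => by rw [hfun_of_nonpos g _ _ _ t ht, hfun_of_nonpos g _ _ _ 0 le_rfl])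
    (fun t ht => by rw [hfun_of_one_le g _ _ _ t ht, hfun_of_one_le g _ _ _ 1 le_rfl])
    a1 τ 0 a2 hτ h1 h2
  have q2 := integral_transition (hfun g (Real.pi / 3) (-(Real.pi / 6)) τ) c2
    (fun t ht => by rw [hfun_of_nonpos g _ _ _ t ht, hfun_of_nonpos g _ _ _ 0 le_rfl])
    (fun t ht => by rw [hfun_of_one_le g _ _ _ t ht, hfun_of_one_le g _ _ _ 1 le_rfl])
    a2 τ a2 a3 hτ le_rfl h3
  have q3 := integral_transition (hfun g (Real.pi / 6) (Real.pi / 12) τ) c3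
    (fun t ht => by rw [hfun_of_nonpos g _ _ _ t ht, hfun_of_nonpos g _ _ _ 0 le_rfl])
    (fun t ht => by rw [hfun_of_one_le g _ _ _ t ht, hfun_of_one_le g _ _ _ 1 le_rfl])
    a3 τ a3 V hτ le_rfl h4
  rw [← intervalIntegral.integral_add_adjacent_intervals (hf.intervalIntegrable 0 a2)
      (hf.intervalIntegrable a2 V),
    ← intervalIntegral.integral_add_adjacent_intervals (hf.intervalIntegrable a2 a3)
      (hf.intervalIntegrable a3 V), p1, p2, p3, q1, q2, q3]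
  rw [hfun_of_nonpos g _ _ _ 0 le_rfl, hfun_of_one_le g _ _ _ 1 le_rfl,
    hfun_of_nonpos g _ _ _ 0 le_rfl, hfun_of_one_le g _ _ _ 1 le_rfl,
    hfun_of_nonpos g _ _ _ 0 le_rfl, hfun_of_one_le g _ _ _ 1 le_rfl]
  have e1 : Real.pi / 4 + Real.pi / 12 = Real.pi / 3 := by ring
  have e2 : Real.pi / 3 + -(Real.pi / 6) = Real.pi / 6 := by ring
  have e3 : Real.pi / 6 + Real.pi / 12 = Real.pi / 4 := by ring
  rw [e1, e2, e3]
  ring

/-- The `V`-periodic extension of the three-plateau profile. -/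
noncomputable def perProf (τ a1 a2 a3 V : ℝ) (s : ℝ) : ℝ :=
  prof τ a1 a2 a3 (s - V * ⌊s / V⌋)

theorem perProf_local (τ a1 a2 a3 V : ℝ) (hτ : 0 < τ) (h1 : 0 < a1) (h2 : a1 + τ ≤ a2)
    (h3 : a2 + τ ≤ a3) (h4 : a3 + τ + a1 ≤ V) (n : ℤ) (s : ℝ) (hs1 : n * V - a1 < s)
    (hs2 : s < (n + 1) * V) :
    perProf τ a1 a2 a3 V s = prof τ a1 a2 a3 (s - n * V) := by
  have hV : 0 < V := by linarith
  unfold perProf
  by_cases hs : (n : ℝ) * V ≤ s
  · have hfl : ⌊s / V⌋ = n := by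
      rw [Int.floor_eq_iff]
      exact ⟨by rw [le_div_iff₀ hV]; exact hs, by rw [div_lt_iff₀ hV]; exact hs2⟩
    rw [hfl, mul_comm]
  · have hs' : s < (n : ℝ) * V := not_le.mp hs
    have hfl : ⌊s / V⌋ = n - 1 := by
      rw [Int.floor_eq_iff]
      push_cast
      exact ⟨by rw [le_div_iff₀ hV]; nlinarith, by rw [div_lt_iff₀ hV]; linarith⟩
    rw [hfl]
    push_cast
    rw [(prof_of_ge τ a1 a2 a3 _ hτ (by linarith) h3 (by nlinarith)).1,
      (prof_of_le τ a1 a2 a3 _ hτ (by linarith) (by linarith) (by linarith)).1]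

theorem perProf_eventuallyEq (τ a1 a2 a3 V : ℝ) (hτ : 0 < τ) (h1 : 0 < a1) (h2 : a1 + τ ≤ a2)
    (h3 : a2 + τ ≤ a3) (h4 : a3 + τ + a1 ≤ V) (n : ℤ) (s : ℝ) (hs1 : n * V - a1 < s)
    (hs2 : s < (n + 1) * V) :
    perProf τ a1 a2 a3 V =ᶠ[nhds s] fun s => prof τ a1 a2 a3 (s - n * V) :=
  Filter.eventually_of_mem (Ioo_mem_nhds hs1 hs2)
    (fun t ht => perProf_local τ a1 a2 a3 V hτ h1 h2 h3 h4 n t ht.1 ht.2)

theorem exists_int_window (V : ℝ) (hV : 0 < V) (a1 : ℝ) (h1 : 0 < a1) (s : ℝ) :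
    ∃ n : ℤ, n * V - a1 < s ∧ s < (n + 1) * V := by
  refine ⟨⌊s / V⌋, ?_, ?_⟩
  · have := Int.floor_le (s / V)
    rw [le_div_iff₀ hV] at this
    linarith
  · have := Int.lt_floor_add_one (s / V)
    rw [div_lt_iff₀ hV] at this
    exact this

theorem contDiff_perProf (τ a1 a2 a3 V : ℝ) (hτ : 0 < τ) (h1 : 0 < a1) (h2 : a1 + τ ≤ a2)
    (h3 : a2 + τ ≤ a3) (h4 : a3 + τ + a1 ≤ V) : ContDiff ℝ ∞ (perProf τ a1 a2 a3 V) := by
  have hV : 0 < V := by linarith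
  rw [contDiff_iff_contDiffAt]
  intro s
  obtain ⟨n, hn1, hn2⟩ := exists_int_window V hV a1 h1 s
  have hc : ContDiff ℝ ∞ (fun s => prof τ a1 a2 a3 (s - n * V)) :=
    (contDiff_prof τ a1 a2 a3).comp (by fun_prop)
  exact hc.contDiffAt.congr_of_eventuallyEq
    (perProf_eventuallyEq τ a1 a2 a3 V hτ h1 h2 h3 h4 n s hn1 hn2)

theorem deriv_perProf (τ a1 a2 a3 V : ℝ) (hτ : 0 < τ) (h1 : 0 < a1) (h2 : a1 + τ ≤ a2)
    (h3 : a2 + τ ≤ a3) (h4 : a3 + τ + a1 ≤ V) (n : ℤ) (s : ℝ) (hs1 : n * V - a1 < s)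
    (hs2 : s < (n + 1) * V) :
    deriv (perProf τ a1 a2 a3 V) s = dprof τ a1 a2 a3 (s - n * V) := by
  rw [(perProf_eventuallyEq τ a1 a2 a3 V hτ h1 h2 h3 h4 n s hs1 hs2).deriv_eq]
  have h := HasDerivAt.comp s (hasDerivAt_prof τ a1 a2 a3 (s - n * V))
    ((hasDerivAt_id s).sub_const (n * V))
  have h' : HasDerivAt (fun s => prof τ a1 a2 a3 (s - n * V))
      (dprof τ a1 a2 a3 (s - n * V) * 1) s := h
  rw [h'.deriv, mul_one]

theorem perProf_periodic (τ a1 a2 a3 V : ℝ) (hV : 0 < V) (s : ℝ) :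
    perProf τ a1 a2 a3 V (s + V) = perProf τ a1 a2 a3 V s := by
  unfold perProf
  have h : (s + V) / V = s / V + 1 := by field_simp
  rw [h, Int.floor_add_one]
  push_cast
  congr 1
  ring

theorem perProf_bounds (τ a1 a2 a3 V s : ℝ) :
    Real.pi / 12 ≤ perProf τ a1 a2 a3 V s ∧ perProf τ a1 a2 a3 V s ≤ 5 * Real.pi / 12 :=
  prof_bounds τ a1 a2 a3 _

theorem deriv_perProf_bound (M τ a1 a2 a3 V : ℝ) (hM : ∀ t, |dst t| ≤ M) (hτ4 : τ = 4 * M)
    (hM0 : 0 < M) (hτ : 0 < τ) (h1 : 0 < a1) (h2 : a1 + τ ≤ a2)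
    (h3 : a2 + τ ≤ a3) (h4 : a3 + τ + a1 ≤ V) (s : ℝ) :
    |deriv (perProf τ a1 a2 a3 V) s| ≤ 1 / 2 := by
  have hV : 0 < V := by linarith
  obtain ⟨n, hn1, hn2⟩ := exists_int_window V hV a1 h1 s
  rw [deriv_perProf τ a1 a2 a3 V hτ h1 h2 h3 h4 n s hn1 hn2]
  exact dprof_bound M τ a1 a2 a3 _ hM hτ4 hM0

/-- On a period the periodic profile and its derivative agree with the profile. -/
theorem perProf_eq_on (τ a1 a2 a3 V : ℝ) (hτ : 0 < τ) (h1 : 0 < a1) (h2 : a1 + τ ≤ a2)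
    (h3 : a2 + τ ≤ a3) (h4 : a3 + τ + a1 ≤ V) (s : ℝ) (hs0 : 0 ≤ s) (hsV : s ≤ V) :
    perProf τ a1 a2 a3 V s = prof τ a1 a2 a3 s ∧
    deriv (perProf τ a1 a2 a3 V) s = dprof τ a1 a2 a3 s := by
  have hV : 0 < V := by linarith
  rcases lt_or_eq_of_le hsV with hlt | heq
  · have hn1 : ((0 : ℤ) : ℝ) * V - a1 < s := by push_cast; linarith
    have hn2 : s < (((0 : ℤ) : ℝ) + 1) * V := by push_cast; linarith
    have e1 := perProf_local τ a1 a2 a3 V hτ h1 h2 h3 h4 0 s hn1 hn2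
    have e2 := deriv_perProf τ a1 a2 a3 V hτ h1 h2 h3 h4 0 s hn1 hn2
    simp only [Int.cast_zero, zero_mul, sub_zero] at e1 e2
    exact ⟨e1, e2⟩
  · have hn1 : ((1 : ℤ) : ℝ) * V - a1 < s := by push_cast; linarith
    have hn2 : s < (((1 : ℤ) : ℝ) + 1) * V := by push_cast; linarith
    have e1 := perProf_local τ a1 a2 a3 V hτ h1 h2 h3 h4 1 s hn1 hn2
    have e2 := deriv_perProf τ a1 a2 a3 V hτ h1 h2 h3 h4 1 s hn1 hn2
    have hz : s - ((1 : ℤ) : ℝ) * V = 0 := by push_cast; linarith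
    rw [hz] at e1 e2
    obtain ⟨f1, f2⟩ := prof_of_le τ a1 a2 a3 0 hτ (by linarith) (by linarith) h1.le
    obtain ⟨g1, g2⟩ := prof_of_ge τ a1 a2 a3 s hτ (by linarith) h3 (by linarith)
    rw [e1, e2, f1, f2, g1, g2]
    exact ⟨rfl, rfl⟩

theorem integral_perProf (g : ℝ → ℝ → ℝ) (τ a1 a2 a3 V : ℝ) (hτ : 0 < τ) (h1 : 0 < a1)
    (h2 : a1 + τ ≤ a2) (h3 : a2 + τ ≤ a3) (h4 : a3 + τ + a1 ≤ V) :
    ∫ s in (0 : ℝ)..V, g (perProf τ a1 a2 a3 V s) (deriv (perProf τ a1 a2 a3 V) s)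
      = ∫ s in (0 : ℝ)..V, g (prof τ a1 a2 a3 s) (dprof τ a1 a2 a3 s) := by
  have hV : 0 < V := by linarith
  apply intervalIntegral.integral_congr
  intro s hs
  rw [Set.uIcc_of_le hV.le] at hs
  obtain ⟨e1, e2⟩ := perProf_eq_on τ a1 a2 a3 V hτ h1 h2 h3 h4 s hs.1 hs.2
  simp only [e1, e2]

/-- The integrand of the first phase integral. -/
noncomputable def ga (θ w : ℝ) : ℝ := Real.cos θ / Real.sin θ * Real.sqrt (1 - w ^ 2)

/-- The integrand of the second phase integral. -/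
noncomputable def gb (θ w : ℝ) : ℝ := Real.sin θ / Real.cos θ * Real.sqrt (1 - w ^ 2)

theorem continuous_ga (φ wf : ℝ → ℝ) (hφ : Continuous φ) (hwf : Continuous wf)
    (h : ∀ t, 0 < φ t ∧ φ t < Real.pi / 2) : Continuous (fun t => ga (φ t) (wf t)) := by
  unfold ga
  have hs : ∀ t, Real.sin (φ t) ≠ 0 := fun t =>
    (Real.sin_pos_of_pos_of_lt_pi (h t).1 (by linarith [(h t).2, Real.pi_pos])).ne'
  exact ((Real.continuous_cos.comp hφ).div (Real.continuous_sin.comp hφ) hs).mul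
    (Real.continuous_sqrt.comp (continuous_const.sub (hwf.pow 2)))

theorem continuous_gb (φ wf : ℝ → ℝ) (hφ : Continuous φ) (hwf : Continuous wf)
    (h : ∀ t, 0 < φ t ∧ φ t < Real.pi / 2) : Continuous (fun t => gb (φ t) (wf t)) := by
  unfold gb
  have hs : ∀ t, Real.cos (φ t) ≠ 0 := fun t =>
    (Real.cos_pos_of_mem_Ioo ⟨by linarith [(h t).1, Real.pi_pos], (h t).2⟩).ne'
  exact ((Real.continuous_sin.comp hφ).div (Real.continuous_cos.comp hφ) hs).mul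
    (Real.continuous_sqrt.comp (continuous_const.sub (hwf.pow 2)))

theorem hfun_range (c Δ : ℝ) (hc : Real.pi / 6 ≤ c ∧ c ≤ Real.pi / 3)
    (hcΔ : Real.pi / 6 ≤ c + Δ ∧ c + Δ ≤ Real.pi / 3) (t : ℝ) :
    0 < c + Δ * Real.smoothTransition t ∧ c + Δ * Real.smoothTransition t < Real.pi / 2 := by
  have h0 := Real.smoothTransition.nonneg t
  have h1 := Real.smoothTransition.le_one t
  have hπ := Real.pi_pos
  rcases le_total 0 Δ with hΔ | hΔ
  · constructor <;> nlinarith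
  · constructor <;> nlinarith

theorem continuous_hfun_ga (c Δ τ : ℝ) (hc : Real.pi / 6 ≤ c ∧ c ≤ Real.pi / 3)
    (hcΔ : Real.pi / 6 ≤ c + Δ ∧ c + Δ ≤ Real.pi / 3) : Continuous (hfun ga c Δ τ) :=
  continuous_ga _ _ (continuous_const.add (continuous_const.mul contDiff_st.continuous))
    (continuous_const.mul contDiff_dst.continuous) (hfun_range c Δ hc hcΔ)

theorem continuous_hfun_gb (c Δ τ : ℝ) (hc : Real.pi / 6 ≤ c ∧ c ≤ Real.pi / 3)
    (hcΔ : Real.pi / 6 ≤ c + Δ ∧ c + Δ ≤ Real.pi / 3) : Continuous (hfun gb c Δ τ) :=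
  continuous_gb _ _ (continuous_const.add (continuous_const.mul contDiff_st.continuous))
    (continuous_const.mul contDiff_dst.continuous) (hfun_range c Δ hc hcΔ)

theorem ga_values : ga (Real.pi / 4) 0 = 1 ∧ ga (Real.pi / 3) 0 = Real.sqrt 3 / 3 ∧
    ga (Real.pi / 6) 0 = Real.sqrt 3 := by
  have h3 : Real.sqrt 3 ^ 2 = 3 := Real.sq_sqrt (by norm_num)
  have h3pos : 0 < Real.sqrt 3 := Real.sqrt_pos.mpr (by norm_num)
  have h2pos : 0 < Real.sqrt 2 := Real.sqrt_pos.mpr (by norm_num)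
  have e : Real.sqrt (1 - (0 : ℝ) ^ 2) = 1 := by norm_num
  unfold ga
  rw [Real.cos_pi_div_four, Real.sin_pi_div_four, Real.cos_pi_div_three, Real.sin_pi_div_three,
    Real.cos_pi_div_six, Real.sin_pi_div_six, e]
  refine ⟨?_, ?_, ?_⟩
  · field_simp
  · field_simp
    linarith
  · field_simp

theorem gb_values : gb (Real.pi / 4) 0 = 1 ∧ gb (Real.pi / 3) 0 = Real.sqrt 3 ∧
    gb (Real.pi / 6) 0 = Real.sqrt 3 / 3 := by
  have h3 : Real.sqrt 3 ^ 2 = 3 := Real.sq_sqrt (by norm_num)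
  have h3pos : 0 < Real.sqrt 3 := Real.sqrt_pos.mpr (by norm_num)
  have h2pos : 0 < Real.sqrt 2 := Real.sqrt_pos.mpr (by norm_num)
  have e : Real.sqrt (1 - (0 : ℝ) ^ 2) = 1 := by norm_num
  unfold gb
  rw [Real.cos_pi_div_four, Real.sin_pi_div_four, Real.cos_pi_div_three, Real.sin_pi_div_three,
    Real.cos_pi_div_six, Real.sin_pi_div_six, e]
  refine ⟨?_, ?_, ?_⟩
  · field_simp
  · field_simp
  · field_simp
    linarith

theorem continuous_ga_prof (τ a1 a2 a3 : ℝ) :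
    Continuous (fun s => ga (prof τ a1 a2 a3 s) (dprof τ a1 a2 a3 s)) :=
  continuous_ga _ _ (contDiff_prof τ a1 a2 a3).continuous (contDiff_dprof τ a1 a2 a3).continuous
    (fun t => by
      have h := prof_bounds τ a1 a2 a3 t
      have hπ := Real.pi_pos
      constructor <;> linarith [h.1, h.2])

theorem continuous_gb_prof (τ a1 a2 a3 : ℝ) :
    Continuous (fun s => gb (prof τ a1 a2 a3 s) (dprof τ a1 a2 a3 s)) :=
  continuous_gb _ _ (contDiff_prof τ a1 a2 a3).continuous (contDiff_dprof τ a1 a2 a3).continuous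
    (fun t => by
      have h := prof_bounds τ a1 a2 a3 t
      have hπ := Real.pi_pos
      constructor <;> linarith [h.1, h.2])

/-- For every sufficiently long period `V` and every pair of targets there is a smooth
`V`-periodic angle profile with values in `[π/12, 5π/12]` and slope at most `1/2` whose two phase
integrals hit the targets modulo `2π`. -/
theorem exists_profile : ∃ S₀ : ℝ, ∀ V : ℝ, S₀ ≤ V → ∀ α₁ α₂ : ℝ,
    ∃ (Θ : ℝ → ℝ) (n₁ n₂ : ℤ), ContDiff ℝ ∞ Θ ∧ (∀ s, Θ (s + V) = Θ s) ∧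
      (∀ s, Real.pi / 12 ≤ Θ s ∧ Θ s ≤ 5 * Real.pi / 12) ∧ (∀ s, |deriv Θ s| ≤ 1 / 2) ∧
      (∫ s in (0 : ℝ)..V, ga (Θ s) (deriv Θ s)) = α₁ + n₁ * (2 * Real.pi) ∧
      (∫ s in (0 : ℝ)..V, gb (Θ s) (deriv Θ s)) = α₂ + n₂ * (2 * Real.pi) := by
  obtain ⟨M, hM0, hM⟩ := exists_dst_bound
  obtain ⟨τ, hτdef⟩ : ∃ τ : ℝ, τ = 4 * M := ⟨_, rfl⟩
  have hτ : 0 < τ := by rw [hτdef]; positivity
  obtain ⟨Ja, hJa⟩ : ∃ Ja : ℝ, Ja = τ * ((∫ t in (0 : ℝ)..1, hfun ga (Real.pi / 4) (Real.pi / 12) τ t)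
          + (∫ t in (0 : ℝ)..1, hfun ga (Real.pi / 3) (-(Real.pi / 6)) τ t)
          + (∫ t in (0 : ℝ)..1, hfun ga (Real.pi / 6) (Real.pi / 12) τ t)) := ⟨_, rfl⟩
  obtain ⟨Jb, hJb⟩ : ∃ Jb : ℝ, Jb = τ * ((∫ t in (0 : ℝ)..1, hfun gb (Real.pi / 4) (Real.pi / 12) τ t)
          + (∫ t in (0 : ℝ)..1, hfun gb (Real.pi / 3) (-(Real.pi / 6)) τ t)
          + (∫ t in (0 : ℝ)..1, hfun gb (Real.pi / 6) (Real.pi / 12) τ t)) := ⟨_, rfl⟩
  refine ⟨3 * τ + 100, fun V hV α₁ α₂ => ?_⟩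
  obtain ⟨S, hS⟩ : ∃ S : ℝ, S = V - 3 * τ := ⟨_, rfl⟩
  have hS100 : 100 ≤ S := by linarith
  have hπ := Real.pi_pos
  have hπ3 : Real.pi < 3.15 := Real.pi_lt_d2
  obtain ⟨n₁, hn₁⟩ : ∃ n₁ : ℤ, n₁ = ⌊(S + Ja - α₁) / (2 * Real.pi)⌋ + 1 := ⟨_, rfl⟩
  obtain ⟨n₂, hn₂⟩ : ∃ n₂ : ℤ, n₂ = ⌊(S + Jb - α₂) / (2 * Real.pi)⌋ + 1 := ⟨_, rfl⟩
  obtain ⟨A, hA⟩ : ∃ A : ℝ, A = α₁ + n₁ * (2 * Real.pi) - Ja - S := ⟨_, rfl⟩
  obtain ⟨B, hB⟩ : ∃ B : ℝ, B = α₂ + n₂ * (2 * Real.pi) - Jb - S := ⟨_, rfl⟩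
  have hA0 : 0 < A ∧ A ≤ 2 * Real.pi := by
    have h1 := Int.floor_le ((S + Ja - α₁) / (2 * Real.pi))
    have h2 := Int.lt_floor_add_one ((S + Ja - α₁) / (2 * Real.pi))
    rw [le_div_iff₀ (by positivity)] at h1
    rw [div_lt_iff₀ (by positivity)] at h2
    rw [hA, hn₁]
    push_cast
    constructor <;> nlinarith
  have hB0 : 0 < B ∧ B ≤ 2 * Real.pi := by
    have h1 := Int.floor_le ((S + Jb - α₂) / (2 * Real.pi))
    have h2 := Int.lt_floor_add_one ((S + Jb - α₂) / (2 * Real.pi))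
    rw [le_div_iff₀ (by positivity)] at h1
    rw [div_lt_iff₀ (by positivity)] at h2
    rw [hB, hn₂]
    push_cast
    constructor <;> nlinarith
  obtain ⟨r, hr⟩ : ∃ r : ℝ, r = Real.sqrt 3 := ⟨_, rfl⟩
  have hr2 : r ^ 2 = 3 := by rw [hr]; exact Real.sq_sqrt (by norm_num)
  have hr0 : 0 ≤ r := by rw [hr]; exact Real.sqrt_nonneg _
  have hr17 : 17 / 10 < r := by nlinarith
  have hr18 : r < 18 / 10 := by nlinarith
  have hr1 : r - 1 ≠ 0 := by intro h; linarith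
  obtain ⟨u, hu⟩ : ∃ u : ℝ, (r - 1) * u = A := ⟨A / (r - 1), mul_div_cancel₀ A hr1⟩
  obtain ⟨w, hw⟩ : ∃ w : ℝ, (r - 1) * w = B := ⟨B / (r - 1), mul_div_cancel₀ B hr1⟩
  have hu0 : 0 < u := by nlinarith [hA0.1]
  have hw0 : 0 < w := by nlinarith [hB0.1]
  have hu9 : u < 9 := by nlinarith [hA0.2]
  have hw9 : w < 9 := by nlinarith [hB0.2]
  obtain ⟨s2, hs2⟩ : ∃ s2 : ℝ, s2 = (3 * w + r * u) / 2 := ⟨_, rfl⟩
  obtain ⟨s3, hs3⟩ : ∃ s3 : ℝ, s3 = (3 * u + r * w) / 2 := ⟨_, rfl⟩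
  obtain ⟨s1, hs1⟩ : ∃ s1 : ℝ, s1 = S - s2 - s3 := ⟨_, rfl⟩
  have hru : 0 < r * u := mul_pos (by linarith) hu0
  have hrw : 0 < r * w := mul_pos (by linarith) hw0
  have hs2pos : 0 < s2 := by rw [hs2]; linarith
  have hs3pos : 0 < s3 := by rw [hs3]; linarith
  have hs1pos : 0 < s1 := by
    have h5 : (3 + r) * (u + w) < (48 / 10) * 18 :=
      mul_lt_mul'' (by linarith) (by linarith) (by linarith) (by linarith)
    have h6 : (3 + r) * (u + w) = 3 * w + r * u + 3 * u + r * w := by ring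
    rw [hs1, hs2, hs3]
    linarith
  obtain ⟨a1, ha1⟩ : ∃ a1 : ℝ, a1 = s1 / 2 := ⟨_, rfl⟩
  obtain ⟨a2, ha2⟩ : ∃ a2 : ℝ, a2 = a1 + τ + s2 := ⟨_, rfl⟩
  obtain ⟨a3, ha3⟩ : ∃ a3 : ℝ, a3 = a2 + τ + s3 := ⟨_, rfl⟩
  have h1 : 0 < a1 := by rw [ha1]; linarith
  have h2 : a1 + τ ≤ a2 := by rw [ha2]; linarith
  have h3 : a2 + τ ≤ a3 := by rw [ha3]; linarith
  have h4 : a3 + τ + a1 = V := by rw [ha3, ha2, ha1, hs1]; linarith
  have hc1 : Real.pi / 6 ≤ Real.pi / 4 ∧ Real.pi / 4 ≤ Real.pi / 3 := by constructor <;> linarith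
  have hc2 : Real.pi / 6 ≤ Real.pi / 3 ∧ Real.pi / 3 ≤ Real.pi / 3 := by constructor <;> linarith
  have hc3 : Real.pi / 6 ≤ Real.pi / 6 ∧ Real.pi / 6 ≤ Real.pi / 3 := by constructor <;> linarith
  have hd1 : Real.pi / 6 ≤ Real.pi / 4 + Real.pi / 12 ∧ Real.pi / 4 + Real.pi / 12 ≤ Real.pi / 3 := by
    constructor <;> linarith
  have hd2 : Real.pi / 6 ≤ Real.pi / 3 + -(Real.pi / 6) ∧
      Real.pi / 3 + -(Real.pi / 6) ≤ Real.pi / 3 := by
    constructor <;> linarith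
  have hd3 : Real.pi / 6 ≤ Real.pi / 6 + Real.pi / 12 ∧ Real.pi / 6 + Real.pi / 12 ≤ Real.pi / 3 := by
    constructor <;> linarith
  refine ⟨perProf τ a1 a2 a3 V, n₁, n₂, contDiff_perProf τ a1 a2 a3 V hτ h1 h2 h3 h4.le,
    fun s => perProf_periodic τ a1 a2 a3 V (by linarith) s, fun s => perProf_bounds τ a1 a2 a3 V s,
    fun s => deriv_perProf_bound M τ a1 a2 a3 V hM hτdef hM0 hτ h1 h2 h3 h4.le s, ?_, ?_⟩
  · rw [integral_perProf ga τ a1 a2 a3 V hτ h1 h2 h3 h4.le,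
      integral_profile ga τ a1 a2 a3 V hτ h1.le h2 h3 (by linarith) (continuous_ga_prof τ a1 a2 a3)
        (continuous_hfun_ga _ _ τ hc1 hd1) (continuous_hfun_ga _ _ τ hc2 hd2)
        (continuous_hfun_ga _ _ τ hc3 hd3),
      ga_values.1, ga_values.2.1, ga_values.2.2, ← hJa, ← hr]
    subst ha3 ha2 ha1 hs1 hs2 hs3 hS
    linear_combination (u / 6 + w / 2) * hr2 + hu + hA
  · rw [integral_perProf gb τ a1 a2 a3 V hτ h1 h2 h3 h4.le,
      integral_profile gb τ a1 a2 a3 V hτ h1.le h2 h3 (by linarith) (continuous_gb_prof τ a1 a2 a3)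
        (continuous_hfun_gb _ _ τ hc1 hd1) (continuous_hfun_gb _ _ τ hc2 hd2)
        (continuous_hfun_gb _ _ τ hc3 hd3),
      gb_values.1, gb_values.2.1, gb_values.2.2, ← hJb, ← hr]
    subst ha3 ha2 ha1 hs1 hs2 hs3 hS
    linear_combination (w / 6 + u / 2) * hr2 + hw + hB

end Vale.Agent.H55.Imm
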