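import Mathlib

/-!
Primitives of smooth periodic functions and uniform bounds for continuous periodic functions.
-/

namespace Vale.Agent.H55.Imm

open scoped ContDiff

/-- The primitive `x ↦ ∫₀ˣ u`. -/
noncomputable def prim (u : ℝ → ℝ) (x : ℝ) : ℝ := ∫ t in (0 : ℝ)..x, u t

theorem hasDerivAt_prim (u : ℝ → ℝ) (hu : Continuous u) (x : ℝ) :
    HasDerivAt (prim u) (u x) x :=
  intervalIntegral.integral_hasDerivAt_right (hu.intervalIntegrable _ _)
    (hu.stronglyMeasurableAtFilter _ _) hu.continuousAt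

theorem deriv_prim (u : ℝ → ℝ) (hu : Continuous u) : deriv (prim u) = u :=
  funext (fun x => (hasDerivAt_prim u hu x).deriv)

theorem contDiff_prim (u : ℝ → ℝ) (hu : ContDiff ℝ ∞ u) : ContDiff ℝ ∞ (prim u) := by
  rw [contDiff_infty_iff_deriv]
  refine ⟨fun x => (hasDerivAt_prim u hu.continuous x).differentiableAt, ?_⟩
  rw [deriv_prim u hu.continuous]
  exact hu

theorem prim_add_one (u : ℝ → ℝ) (hu : Continuous u) (hp : ∀ x, u (x + 1) = u x) (x : ℝ) :
    prim u (x + 1) = prim u x + prim u 1 := by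
  unfold prim
  have h1 : (∫ t in (0 : ℝ)..x, u t) + (∫ t in x..(x + 1), u t) = ∫ t in (0 : ℝ)..(x + 1), u t :=
    intervalIntegral.integral_add_adjacent_intervals (hu.intervalIntegrable _ _)
      (hu.intervalIntegrable _ _)
  have hper : Function.Periodic u 1 := hp
  have h2 : (∫ t in x..(x + 1), u t) = ∫ t in (0 : ℝ)..(0 + 1), u t :=
    hper.intervalIntegral_add_eq x 0
  rw [zero_add] at h2
  rw [← h1, h2]

/-- A positive continuous periodic function is bounded below by a positive constant. -/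
theorem exists_pos_lower_bound (u : ℝ → ℝ) (hu : Continuous u) (hp : ∀ x, u (x + 1) = u x)
    (hpos : ∀ x, 0 < u x) : ∃ δ : ℝ, 0 < δ ∧ ∀ x, δ ≤ u x := by
  obtain ⟨x0, _, hmin⟩ := isCompact_Icc.exists_isMinOn (Set.nonempty_Icc.mpr zero_le_one)
    (hu.continuousOn (s := Set.Icc (0 : ℝ) 1))
  refine ⟨u x0, hpos x0, fun x => ?_⟩
  have hper : Function.Periodic u 1 := hp
  obtain ⟨y, hy, hxy⟩ := hper.exists_mem_Ico₀ one_pos x
  rw [hxy]
  exact hmin ⟨hy.1, hy.2.le⟩

/-- A continuous periodic function is bounded above. -/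
theorem exists_upper_bound (u : ℝ → ℝ) (hu : Continuous u) (hp : ∀ x, u (x + 1) = u x) :
    ∃ M : ℝ, ∀ x, u x ≤ M := by
  obtain ⟨x0, _, hmax⟩ := isCompact_Icc.exists_isMaxOn (Set.nonempty_Icc.mpr zero_le_one)
    (hu.continuousOn (s := Set.Icc (0 : ℝ) 1))
  refine ⟨u x0, fun x => ?_⟩
  have hper : Function.Periodic u 1 := hp
  obtain ⟨y, hy, hxy⟩ := hper.exists_mem_Ico₀ one_pos x
  rw [hxy]
  exact hmax ⟨hy.1, hy.2.le⟩

end Vale.Agent.H55.Imm
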