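import Vale.Agent.H55.EquivImm
import Vale.Agent.H55.Primitive
import Vale.Agent.H55.Profile

/-!
Every `S¹`-invariant metric on the torus admits a smooth isometric immersion into `ℝ⁴`.
-/

namespace Vale.Agent.H55.Imm

open scoped ContDiff

theorem alg_E (p m T a L s c : ℝ) (hsc : s ^ 2 + c ^ 2 = 1) (hs : s ≠ 0) (hc : c ≠ 0) :
    (p * s + m * (c * T)) ^ 2 + (m * s) ^ 2 * (a + L * c / s) ^ 2
      + (p * c + m * (-s * T)) ^ 2 + (m * c) ^ 2 * (a + -(L * s / c)) ^ 2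
      = p ^ 2 + m ^ 2 * T ^ 2 + m ^ 2 * a ^ 2 + m ^ 2 * L ^ 2 := by
  have e1 : s * (a + L * c / s) = s * a + L * c := by field_simp
  have e2 : c * (a + -(L * s / c)) = c * a - L * s := by field_simp; ring
  have f1 : (m * s) ^ 2 * (a + L * c / s) ^ 2 = m ^ 2 * (s * (a + L * c / s)) ^ 2 := by ring
  have f2 : (m * c) ^ 2 * (a + -(L * s / c)) ^ 2 = m ^ 2 * (c * (a + -(L * s / c))) ^ 2 := by
    ring
  rw [f1, f2, e1, e2]
  linear_combination (p ^ 2 + m ^ 2 * T ^ 2 + m ^ 2 * a ^ 2 + m ^ 2 * L ^ 2) * hsc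

theorem alg_F (m a L s c κ : ℝ) (hsc : s ^ 2 + c ^ 2 = 1) (hs : s ≠ 0) (hc : c ≠ 0) :
    κ * ((m * s) ^ 2 * (a + L * c / s)) + κ * ((m * c) ^ 2 * (a + -(L * s / c)))
      = κ * m ^ 2 * a := by
  have e1 : s * (a + L * c / s) = s * a + L * c := by field_simp
  have e2 : c * (a + -(L * s / c)) = c * a - L * s := by field_simp; ring
  have f1 : (m * s) ^ 2 * (a + L * c / s) = m ^ 2 * s * (s * (a + L * c / s)) := by ring
  have f2 : (m * c) ^ 2 * (a + -(L * s / c)) = m ^ 2 * c * (c * (a + -(L * s / c))) := by ring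
  rw [f1, f2, e1, e2]
  linear_combination (κ * m ^ 2 * a) * hsc

theorem alg_W (g κ t vv s W : ℝ) (hκ : κ ≠ 0) (h1 : vv ^ 2 * g = κ ^ 2 * W)
    (h2 : s ^ 2 = 1 - t ^ 2) : g / κ ^ 2 * (t * vv) ^ 2 + g / κ ^ 2 * (vv * s) ^ 2 = W := by
  field_simp
  linear_combination (g * vv ^ 2) * h2 + h1

theorem deriv_periodic' (Θ : ℝ → ℝ) (V : ℝ) (pΘ : ∀ s, Θ (s + V) = Θ s) (s : ℝ) :
    deriv Θ (s + V) = deriv Θ s := by
  have h : (fun s => Θ (s + V)) = Θ := funext pΘ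
  have h2 := deriv_comp_add_const Θ V s
  rw [h] at h2
  exact h2.symm

theorem general_twist (E F G : ℝ → ℝ)
    (hE : ContDiff ℝ ∞ E) (hF : ContDiff ℝ ∞ F) (hG : ContDiff ℝ ∞ G)
    (pE : ∀ x, E (x + 1) = E x) (pF : ∀ x, F (x + 1) = F x) (pG : ∀ x, G (x + 1) = G x)
    (hGpos : ∀ x, 0 < G x) (hdet : ∀ x, 0 < E x * G x - F x ^ 2) :
    ∃ Φ : ℝ × ℝ → EuclideanSpace ℝ (Fin 4),
      ContDiff ℝ ∞ Φ ∧ (∀ p : ℝ × ℝ, Φ (p.1 + 1, p.2) = Φ p) ∧
      (∀ p : ℝ × ℝ, Φ (p.1, p.2 + 1) = Φ p) ∧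
      ∀ p : ℝ × ℝ,
        inner ℝ (fderiv ℝ Φ p (1, 0)) (fderiv ℝ Φ p (1, 0)) = E p.1 ∧
        inner ℝ (fderiv ℝ Φ p (1, 0)) (fderiv ℝ Φ p (0, 1)) = F p.1 ∧
        inner ℝ (fderiv ℝ Φ p (0, 1)) (fderiv ℝ Φ p (0, 1)) = G p.1 := by
  have hGne : ∀ x, G x ≠ 0 := fun x => (hGpos x).ne'
  have hdG : ContDiff ℝ ∞ (deriv G) := (contDiff_infty_iff_deriv.mp hG).2
  -- the two auxiliary periodic functions
  set D : ℝ → ℝ := fun x => E x - F x ^ 2 / G x with hD
  set M : ℝ → ℝ := fun x => deriv G x ^ 2 / (4 * G x) with hM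
  have cD : ContDiff ℝ ∞ D := hE.sub ((hF.pow 2).div hG hGne)
  have cM : ContDiff ℝ ∞ M := (hdG.pow 2).div (contDiff_const.mul hG)
    (fun x => by have := hGpos x; positivity)
  have pD : ∀ x, D (x + 1) = D x := by intro x; simp only [hD, pE, pF, pG]
  have pM : ∀ x, M (x + 1) = M x := by
    intro x; simp only [hM, pG, deriv_periodic' G 1 pG]
  have posD : ∀ x, 0 < D x := by
    intro x
    have h : D x = (E x * G x - F x ^ 2) / G x := by
      have hg := hGne x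
      simp only [hD]; field_simp
    rw [h]
    exact div_pos (hdet x) (hGpos x)
  obtain ⟨δ, hδ, hδD⟩ := exists_pos_lower_bound D cD.continuous pD posD
  obtain ⟨Mmax, hMmax⟩ := exists_upper_bound M cM.continuous pM
  obtain ⟨Gmax, hGmax⟩ := exists_upper_bound G hG.continuous pG
  obtain ⟨S₀, hprof⟩ := exists_profile
  have hGmaxpos : 0 < Gmax := lt_of_lt_of_le (hGpos 0) (hGmax 0)
  obtain ⟨c₀, hc₀⟩ : ∃ c₀ : ℝ, c₀ = Real.sqrt (δ / (2 * Gmax)) := ⟨_, rfl⟩
  have hc₀pos : 0 < c₀ := by rw [hc₀]; exact Real.sqrt_pos.mpr (by positivity)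
  -- the frequency
  obtain ⟨k, hk⟩ : ∃ k : ℕ, k = ⌈2 * Mmax / δ⌉₊ + ⌈S₀ / c₀⌉₊ + 1 := ⟨_, rfl⟩
  have hk1 : (1 : ℝ) ≤ k := by
    rw [hk]; push_cast
    linarith [Nat.cast_nonneg (α := ℝ) ⌈2 * Mmax / δ⌉₊, Nat.cast_nonneg (α := ℝ) ⌈S₀ / c₀⌉₊]
  have hkM : 2 * Mmax / δ ≤ k := by
    rw [hk]; push_cast
    linarith [Nat.le_ceil (2 * Mmax / δ), Nat.cast_nonneg (α := ℝ) ⌈S₀ / c₀⌉₊]
  have hkS : S₀ / c₀ ≤ k := by
    rw [hk]; push_cast
    linarith [Nat.le_ceil (S₀ / c₀), Nat.cast_nonneg (α := ℝ) ⌈2 * Mmax / δ⌉₊]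
  obtain ⟨κ, hκ⟩ : ∃ κ : ℝ, κ = ((k : ℤ) : ℝ) * (2 * Real.pi) := ⟨_, rfl⟩
  have hπ : (1 : ℝ) ≤ 2 * Real.pi := by linarith [Real.pi_gt_three]
  have hκk : (k : ℝ) ≤ κ := by
    rw [hκ]; push_cast
    nlinarith
  have hκpos : 0 < κ := by linarith
  have hκ0 : κ ≠ 0 := hκpos.ne'
  have hκ2 : 2 * Mmax ≤ δ * κ ^ 2 := by
    rw [div_le_iff₀ hδ] at hkM
    have h1 : (k : ℝ) ≤ κ ^ 2 := by nlinarith
    nlinarith
  -- the available speed
  set W : ℝ → ℝ := fun x => D x - M x / κ ^ 2 with hW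
  have hWlow : ∀ x, δ / 2 ≤ W x := by
    intro x
    have h1 : M x / κ ^ 2 ≤ δ / 2 := by
      rw [div_le_iff₀ (by positivity)]
      nlinarith [hMmax x]
    simp only [hW]
    linarith [hδD x]
  have posW : ∀ x, 0 < W x := fun x => by linarith [hWlow x]
  have cW : ContDiff ℝ ∞ W := cD.sub (cM.div_const _)
  have pW : ∀ x, W (x + 1) = W x := by intro x; simp only [hW, pD, pM]
  set v : ℝ → ℝ := fun x => κ * Real.sqrt (W x / G x) with hv
  have cv : ContDiff ℝ ∞ v := contDiff_const.mul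
    ((cW.div hG hGne).sqrt (fun x => (div_pos (posW x) (hGpos x)).ne'))
  have pv : ∀ x, v (x + 1) = v x := by intro x; simp only [hv, pW, pG]
  have v2 : ∀ x, v x ^ 2 * G x = κ ^ 2 * W x := by
    intro x
    have h1 : Real.sqrt (W x / G x) ^ 2 = W x / G x :=
      Real.sq_sqrt (div_pos (posW x) (hGpos x)).le
    have hg := hGne x
    simp only [hv]
    rw [mul_pow, h1]
    field_simp
  have hvlow : ∀ x, κ * c₀ ≤ v x := by
    intro x
    have h1 : δ / (2 * Gmax) ≤ W x / G x := by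
      rw [div_le_div_iff₀ (by positivity) (hGpos x)]
      have h2 := hWlow x
      have h3 := hGmax x
      have h4 := hGpos x
      nlinarith
    simp only [hv]
    rw [hc₀]
    exact mul_le_mul_of_nonneg_left (Real.sqrt_le_sqrt h1) hκpos.le
  obtain ⟨V, hV⟩ : ∃ V : ℝ, V = prim v 1 := ⟨_, rfl⟩
  have hVlow : S₀ ≤ V := by
    have h1 : (∫ _ in (0 : ℝ)..1, κ * c₀) ≤ ∫ t in (0 : ℝ)..1, v t :=
      intervalIntegral.integral_mono_on zero_le_one (continuous_const.intervalIntegrable _ _)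
        (cv.continuous.intervalIntegrable _ _) (fun x _ => hvlow x)
    rw [intervalIntegral.integral_const, sub_zero, one_smul] at h1
    rw [div_le_iff₀ hc₀pos] at hkS
    rw [hV]
    unfold prim
    nlinarith
  -- the twist
  set u : ℝ → ℝ := fun x => F x / G x with hu
  have cu : ContDiff ℝ ∞ u := hF.div hG hGne
  have pu : ∀ x, u (x + 1) = u x := by intro x; simp only [hu, pF, pG]
  obtain ⟨T, hT⟩ : ∃ T : ℝ, T = prim u 1 := ⟨_, rfl⟩
  -- the angle profile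
  obtain ⟨Θ, n₁, n₂, cΘ, perΘ, bΘ, dΘ, hIa, hIb⟩ := hprof V hVlow (-(κ * T)) (κ * T)
  have cdΘ : ContDiff ℝ ∞ (deriv Θ) := (contDiff_infty_iff_deriv.mp cΘ).2
  have perdΘ : ∀ s, deriv Θ (s + V) = deriv Θ s := deriv_periodic' Θ V perΘ
  have hΘrange : ∀ s, 0 < Θ s ∧ Θ s < Real.pi / 2 := by
    intro s
    have h := bΘ s
    have hπ0 := Real.pi_pos
    constructor <;> linarith [h.1, h.2]
  set σ : ℝ → ℝ := prim v with hσ
  have cσ : ContDiff ℝ ∞ σ := contDiff_prim v cv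
  have σ1 : ∀ x, σ (x + 1) = σ x + V := by
    intro x; rw [hV]; exact prim_add_one v cv.continuous pv x
  set ϑ : ℝ → ℝ := fun x => Θ (σ x) with hϑ
  set tt : ℝ → ℝ := fun x => deriv Θ (σ x) with htt
  have cϑ : ContDiff ℝ ∞ ϑ := cΘ.comp cσ
  have ctt : ContDiff ℝ ∞ tt := cdΘ.comp cσ
  have pϑ : ∀ x, ϑ (x + 1) = ϑ x := by intro x; simp only [hϑ, σ1, perΘ]
  have ptt : ∀ x, tt (x + 1) = tt x := by intro x; simp only [htt, σ1, perdΘ]
  have dϑ : ∀ x, HasDerivAt ϑ (tt x * v x) x := by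
    intro x
    have h1 := hasDerivAt_prim v cv.continuous x
    have h2 := (cΘ.differentiable (by simp) (σ x)).hasDerivAt
    exact HasDerivAt.comp x h2 h1
  have sinpos : ∀ x, 0 < Real.sin (ϑ x) := fun x =>
    Real.sin_pos_of_pos_of_lt_pi (hΘrange _).1 (by linarith [(hΘrange (σ x)).2, Real.pi_pos])
  have cospos : ∀ x, 0 < Real.cos (ϑ x) := fun x =>
    Real.cos_pos_of_mem_Ioo ⟨by linarith [(hΘrange (σ x)).1, Real.pi_pos], (hΘrange _).2⟩
  have hsqpos : ∀ x, 0 < 1 - tt x ^ 2 := by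
    intro x
    have h := abs_le.mp (dΘ (σ x))
    simp only [htt]
    nlinarith [h.1, h.2]
  set sq : ℝ → ℝ := fun x => Real.sqrt (1 - tt x ^ 2) with hsq
  have csq : ContDiff ℝ ∞ sq := (contDiff_const.sub (ctt.pow 2)).sqrt (fun x => (hsqpos x).ne')
  have sq2 : ∀ x, sq x ^ 2 = 1 - tt x ^ 2 := fun x => Real.sq_sqrt (hsqpos x).le
  have psq : ∀ x, sq (x + 1) = sq x := by intro x; simp only [hsq, ptt]
  -- the phase speeds
  set q1 : ℝ → ℝ := fun x => v x * sq x * Real.cos (ϑ x) / Real.sin (ϑ x) with hq1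
  set q2 : ℝ → ℝ := fun x => -(v x * sq x * Real.sin (ϑ x) / Real.cos (ϑ x)) with hq2
  have cq1 : ContDiff ℝ ∞ q1 := ((cv.mul csq).mul (Real.contDiff_cos.comp cϑ)).div
    (Real.contDiff_sin.comp cϑ) (fun x => (sinpos x).ne')
  have cq2 : ContDiff ℝ ∞ q2 := (((cv.mul csq).mul (Real.contDiff_sin.comp cϑ)).div
    (Real.contDiff_cos.comp cϑ) (fun x => (cospos x).ne')).neg
  have pq1 : ∀ x, q1 (x + 1) = q1 x := by intro x; simp only [hq1, pv, psq, pϑ]
  have pq2 : ∀ x, q2 (x + 1) = q2 x := by intro x; simp only [hq2, pv, psq, pϑ]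
  have hσ0 : σ 0 = 0 := by simp [hσ, prim]
  have hσ1 : σ 1 = V := by rw [hV]
  have hint1 : prim q1 1 = -(κ * T) + n₁ * (2 * Real.pi) := by
    rw [← hIa]
    have key := intervalIntegral.integral_comp_mul_deriv (a := 0) (b := 1) (f := σ) (f' := v)
      (g := fun s => ga (Θ s) (deriv Θ s)) (fun x _ => hasDerivAt_prim v cv.continuous x)
      cv.continuous.continuousOn
      (continuous_ga Θ (deriv Θ) cΘ.continuous cdΘ.continuous hΘrange)
    rw [hσ0, hσ1] at key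
    rw [← key]
    unfold prim
    apply intervalIntegral.integral_congr
    intro x _
    simp only [Function.comp, ga, hq1, hsq, hϑ, htt]
    ring
  have hint2 : prim q2 1 = -(κ * T + n₂ * (2 * Real.pi)) := by
    rw [← hIb]
    have key := intervalIntegral.integral_comp_mul_deriv (a := 0) (b := 1) (f := σ) (f' := v)
      (g := fun s => gb (Θ s) (deriv Θ s)) (fun x _ => hasDerivAt_prim v cv.continuous x)
      cv.continuous.continuousOn
      (continuous_gb Θ (deriv Θ) cΘ.continuous cdΘ.continuous hΘrange)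
    rw [hσ0, hσ1] at key
    rw [← key, ← intervalIntegral.integral_neg]
    unfold prim
    apply intervalIntegral.integral_congr
    intro x _
    simp only [Function.comp, gb, hq2, hsq, hϑ, htt]
    ring
  -- derivatives of the moduli and the phases
  have dρ1 : ∀ x, deriv (fun x => Real.sqrt (G x) / κ * Real.sin (ϑ x)) x
      = deriv G x / (2 * Real.sqrt (G x)) / κ * Real.sin (ϑ x)
        + Real.sqrt (G x) / κ * (Real.cos (ϑ x) * (tt x * v x)) := by
    intro x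
    exact ((((hG.differentiable (by simp) x).hasDerivAt.sqrt (hGne x)).div_const κ).mul
      (dϑ x).sin).deriv
  have dρ2 : ∀ x, deriv (fun x => Real.sqrt (G x) / κ * Real.cos (ϑ x)) x
      = deriv G x / (2 * Real.sqrt (G x)) / κ * Real.cos (ϑ x)
        + Real.sqrt (G x) / κ * (-Real.sin (ϑ x) * (tt x * v x)) := by
    intro x
    exact ((((hG.differentiable (by simp) x).hasDerivAt.sqrt (hGne x)).div_const κ).mul
      (dϑ x).cos).deriv
  have dθ1 : ∀ x, deriv (fun x => κ * prim u x + prim q1 x) x = κ * u x + q1 x := by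
    intro x
    exact (((hasDerivAt_prim u cu.continuous x).const_mul κ).add
      (hasDerivAt_prim q1 cq1.continuous x)).deriv
  have dθ2 : ∀ x, deriv (fun x => κ * prim u x + prim q2 x) x = κ * u x + q2 x := by
    intro x
    exact (((hasDerivAt_prim u cu.continuous x).const_mul κ).add
      (hasDerivAt_prim q2 cq2.continuous x)).deriv
  have hsqG : ∀ x, Real.sqrt (G x) ^ 2 = G x := fun x => Real.sq_sqrt (hGpos x).le
  have em : ∀ x, (Real.sqrt (G x) / κ) ^ 2 = G x / κ ^ 2 := fun x => by rw [div_pow, hsqG]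
  apply exists_immersion_of_polar E F G (fun x => Real.sqrt (G x) / κ * Real.sin (ϑ x))
    (fun x => κ * prim u x + prim q1 x) (fun x => Real.sqrt (G x) / κ * Real.cos (ϑ x))
    (fun x => κ * prim u x + prim q2 x) (k : ℤ) (k : ℤ) n₁ (-n₂)
  · exact ((hG.sqrt hGne).div_const _).mul (Real.contDiff_sin.comp cϑ)
  · exact (contDiff_const.mul (contDiff_prim u cu)).add (contDiff_prim q1 cq1)
  · exact ((hG.sqrt hGne).div_const _).mul (Real.contDiff_cos.comp cϑ)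
  · exact (contDiff_const.mul (contDiff_prim u cu)).add (contDiff_prim q2 cq2)
  · intro x; simp only [pG, pϑ]
  · intro x; simp only [pG, pϑ]
  · intro x
    rw [prim_add_one u cu.continuous pu x, prim_add_one q1 cq1.continuous pq1 x, hint1, ← hT]
    ring
  · intro x
    rw [prim_add_one u cu.continuous pu x, prim_add_one q2 cq2.continuous pq2 x, hint2, ← hT]
    push_cast
    ring
  · intro x
    rw [dρ1 x, dρ2 x, dθ1 x, dθ2 x]
    have hEalg := alg_E (deriv G x / (2 * Real.sqrt (G x)) / κ) (Real.sqrt (G x) / κ)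
      (tt x * v x) (κ * u x) (v x * sq x) (Real.sin (ϑ x)) (Real.cos (ϑ x))
      (Real.sin_sq_add_cos_sq (ϑ x)) (sinpos x).ne' (cospos x).ne'
    refine hEalg.trans ?_
    have e1 : (deriv G x / (2 * Real.sqrt (G x)) / κ) ^ 2 = M x / κ ^ 2 := by
      simp only [hM]
      rw [div_pow, div_pow, mul_pow, hsqG]
      norm_num
    have e3 : G x / κ ^ 2 * (tt x * v x) ^ 2 + G x / κ ^ 2 * (v x * sq x) ^ 2 = W x :=
      alg_W (G x) κ (tt x) (v x) (sq x) (W x) hκ0 (v2 x) (sq2 x)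
    have e4 : G x / κ ^ 2 * (κ * u x) ^ 2 = F x ^ 2 / G x := by
      have hg := hGne x
      simp only [hu]
      field_simp
    have e5 : W x = E x - F x ^ 2 / G x - M x / κ ^ 2 := rfl
    rw [e1, em x]
    linarith
  · intro x
    rw [dθ1 x, dθ2 x, ← hκ]
    have hFalg := alg_F (Real.sqrt (G x) / κ) (κ * u x) (v x * sq x) (Real.sin (ϑ x))
      (Real.cos (ϑ x)) κ (Real.sin_sq_add_cos_sq (ϑ x)) (sinpos x).ne' (cospos x).ne'
    refine hFalg.trans ?_
    have hg := hGne x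
    rw [em x]
    simp only [hu]
    field_simp
  · intro x
    rw [← hκ]
    have h1 : κ ^ 2 * (Real.sqrt (G x) / κ * Real.sin (ϑ x)) ^ 2
        + κ ^ 2 * (Real.sqrt (G x) / κ * Real.cos (ϑ x)) ^ 2
        = κ ^ 2 * (Real.sqrt (G x) / κ) ^ 2 * (Real.sin (ϑ x) ^ 2 + Real.cos (ϑ x) ^ 2) := by
      ring
    rw [h1, Real.sin_sq_add_cos_sq, mul_one, em x]
    field_simp

end Vale.Agent.H55.Imm
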